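import Vale.Agent.P207.H442.Int

/-!
# P207 / H469: the K-types of symmetric 2-tensors in the calculus of the frame bundle

`Ro` is the curvature operator on 2-tensors, `Tm` the leaf sum, and `k00`, `k20`, `k22` are the
three components of a symmetric 2-tensor. All of them are parallel operators.
-/

set_option linter.unusedSectionVars false

noncomputable section

namespace Vale.Agent.P207.H469

open Finset Vale.Agent.P207.H442 Vale.Agent.P207.H442.FrCalc

variable {n : ℕ} {A : Type*} [CommRing A] [Algebra ℝ A]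

/-- families with two indices -/
abbrev F2 (n : ℕ) (A : Type*) : Type _ := Fin n → Fin n → A

/-- the trace -/
def tr2 : F2 n A →ₗ[ℝ] A where
  toFun k := ∑ c, k c c
  map_add' k l := by simp [Finset.sum_add_distrib]
  map_smul' c k := by simp [Finset.smul_sum]

theorem tr2_apply (k : F2 n A) : tr2 k = ∑ c, k c c := rfl

/-- multiples of the metric -/
def dl : A →ₗ[ℝ] F2 n A where
  toFun t := fun p q => if p = q then t else 0
  map_add' s t := by
    funext p q
    simp only [Pi.add_apply]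
    split_ifs <;> simp
  map_smul' c t := by
    funext p q
    simp only [Pi.smul_apply, RingHom.id_apply]
    split_ifs <;> simp

theorem dl_apply (t : A) (p q : Fin n) : dl t p q = if p = q then t else 0 := rfl

theorem tr2_dl (t : A) : tr2 (dl (n := n) t) = (n : ℝ) • t := by
  rw [tr2_apply]
  simp only [dl_apply, if_true, Finset.sum_const, Finset.card_univ, Fintype.card_fin]
  rw [Nat.cast_smul_eq_nsmul]

/-- the pointwise scalar product -/
def ip (k l : F2 n A) : A := ∑ p, ∑ q, k p q * l p q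

theorem ip_comm (k l : F2 n A) : ip k l = ip l k := by
  unfold ip
  exact Finset.sum_congr rfl fun p _ => Finset.sum_congr rfl fun q _ => mul_comm _ _

theorem ip_add_left (k k' l : F2 n A) : ip (k + k') l = ip k l + ip k' l := by
  simp only [ip, Pi.add_apply, add_mul, Finset.sum_add_distrib]

theorem ip_add_right (k l l' : F2 n A) : ip k (l + l') = ip k l + ip k l' := by
  rw [ip_comm, ip_add_left, ip_comm l, ip_comm l']

theorem ip_smul_left (c : ℝ) (k l : F2 n A) : ip (c • k) l = c • ip k l := by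
  simp only [ip, Pi.smul_apply, smul_mul_assoc, Finset.smul_sum]

theorem ip_smul_right (c : ℝ) (k l : F2 n A) : ip k (c • l) = c • ip k l := by
  rw [ip_comm, ip_smul_left, ip_comm]

theorem ip_sub_left (k k' l : F2 n A) : ip (k - k') l = ip k l - ip k' l := by
  simp only [ip, Pi.sub_apply, sub_mul, Finset.sum_sub_distrib]

theorem ip_sub_right (k l l' : F2 n A) : ip k (l - l') = ip k l - ip k l' := by
  rw [ip_comm, ip_sub_left, ip_comm l, ip_comm l']

theorem ip_dl_left (t : A) (k : F2 n A) : ip (dl t) k = t * tr2 k := by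
  simp only [ip, dl_apply, tr2_apply, ite_mul, zero_mul, Finset.sum_ite_eq, Finset.mem_univ,
    if_true, Finset.mul_sum]

variable (C : FrCalc n A)

/-- the curvature operator on 2-tensors -/
def Ro : F2 n A →ₗ[ℝ] F2 n A where
  toFun k := fun p q => ∑ a, ∑ c, C.R p a q c * k a c
  map_add' k l := by
    funext p q
    simp only [Pi.add_apply, mul_add, Finset.sum_add_distrib]
  map_smul' c k := by
    funext p q
    simp only [Pi.smul_apply, mul_smul_comm, Finset.smul_sum, RingHom.id_apply]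

theorem Ro_apply (k : F2 n A) (p q : Fin n) : Ro C k p q = ∑ a, ∑ c, C.R p a q c * k a c := rfl

/-- the leaf sum -/
def Tm (b : ℝ) : F2 n A →ₗ[ℝ] F2 n A :=
  (4 / (3 * b ^ 2)) • (Ro C + (b ^ 2) • LinearMap.id - (b ^ 2 / 4) • (dl ∘ₗ tr2))

theorem Tm_apply (b : ℝ) (k : F2 n A) : Tm C b k =
    (4 / (3 * b ^ 2)) • (Ro C k + (b ^ 2) • k - (b ^ 2 / 4) • dl (tr2 k)) := rfl

theorem R_flip (p a q c : Fin n) : C.R p a q c = C.R a p c q := by
  rw [C.R_anti, C.R_skew, neg_neg]

/-- the curvature operator is symmetric -/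
theorem ip_Ro (k l : F2 n A) : ip (Ro C k) l = ip k (Ro C l) := by
  simp only [ip, Ro_apply, Finset.sum_mul, Finset.mul_sum]
  calc ∑ p, ∑ q, ∑ a, ∑ c, C.R p a q c * k a c * l p q
      = ∑ p, ∑ a, ∑ q, ∑ c, C.R p a q c * k a c * l p q :=
        Finset.sum_congr rfl fun p _ => Finset.sum_comm
    _ = ∑ a, ∑ p, ∑ q, ∑ c, C.R p a q c * k a c * l p q := Finset.sum_comm
    _ = ∑ a, ∑ p, ∑ c, ∑ q, C.R p a q c * k a c * l p q :=
        Finset.sum_congr rfl fun a _ => Finset.sum_congr rfl fun p _ => Finset.sum_comm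
    _ = ∑ a, ∑ c, ∑ p, ∑ q, C.R p a q c * k a c * l p q :=
        Finset.sum_congr rfl fun a _ => Finset.sum_comm
    _ = _ := Finset.sum_congr rfl fun a _ => Finset.sum_congr rfl fun c _ =>
        Finset.sum_congr rfl fun p _ => Finset.sum_congr rfl fun q _ => by
          rw [R_flip C p a q c]
          ring

theorem Ro_symm {k : F2 n A} (hk : ∀ p q, k p q = k q p) (p q : Fin n) :
    Ro C k p q = Ro C k q p := by
  rw [Ro_apply, Ro_apply, Finset.sum_comm]
  exact Finset.sum_congr rfl fun a _ => Finset.sum_congr rfl fun c _ => by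
    rw [C.R_pair, hk c a]

theorem Tm_symm (b : ℝ) {k : F2 n A} (hk : ∀ p q, k p q = k q p) (p q : Fin n) :
    Tm C b k p q = Tm C b k q p := by
  rw [Tm_apply]
  simp only [Pi.smul_apply, Pi.add_apply, Pi.sub_apply, Ro_symm C hk p q, hk p q, dl_apply,
    eq_comm (a := p) (b := q)]

theorem ip_Tm (b : ℝ) (k l : F2 n A) : ip (Tm C b k) l = ip k (Tm C b l) := by
  rw [Tm_apply, Tm_apply, ip_smul_left, ip_smul_right]
  congr 1
  rw [ip_sub_left, ip_sub_right, ip_add_left, ip_add_right, ip_Ro, ip_smul_left, ip_smul_right,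
    ip_smul_left, ip_smul_right, ip_dl_left, ip_comm k (dl _), ip_dl_left, mul_comm]

/-! ### Einstein -/

/-- the dimension of the leaf -/
def NN (n : ℕ) (b c₀ : ℝ) : ℝ := 4 / (3 * b ^ 2) * (c₀ - b ^ 2 / 4 * (n - 1)) + 1

/-- a rank one calculus: Einstein, and the leaf sum `T` satisfies `T T = N T` -/
structure RankOne (b c₀ : ℝ) : Prop where
  pos : 0 < b
  npos : 0 < NN n b c₀
  ein : ∀ i j, C.Ric i j = if i = j then -(c₀ • (1 : A)) else 0
  tt : ∀ k : F2 n A, (∀ p q, k p q = k q p) → Tm C b (Tm C b k) = NN n b c₀ • Tm C b k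

variable {C} {b c₀ : ℝ}

theorem sum_R_ein (hE : ∀ i j, C.Ric i j = if i = j then -(c₀ • (1 : A)) else 0) (p q : Fin n) :
    ∑ a, C.R p a q a = if p = q then c₀ • (1 : A) else 0 := by
  have h := hE p q
  unfold FrCalc.Ric at h
  have h1 : ∑ a, C.R p a q a = -∑ a, C.R p a a q := by
    rw [← Finset.sum_neg_distrib]
    exact Finset.sum_congr rfl fun a _ => C.R_skew p a q a
  rw [h1, h]
  split_ifs <;> simp

theorem Ro_dl (hE : ∀ i j, C.Ric i j = if i = j then -(c₀ • (1 : A)) else 0) (t : A) :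
    Ro C (dl t) = c₀ • dl t := by
  funext p q
  rw [Ro_apply]
  simp only [dl_apply, mul_ite, mul_zero, Finset.sum_ite_eq, Finset.mem_univ, if_true,
    Pi.smul_apply]
  rw [← Finset.sum_mul, sum_R_ein hE]
  split_ifs <;> simp

theorem tr2_Ro (hE : ∀ i j, C.Ric i j = if i = j then -(c₀ • (1 : A)) else 0) (k : F2 n A) :
    tr2 (Ro C k) = c₀ • tr2 k := by
  have h1 : tr2 (Ro C k) = ip (dl 1) (Ro C k) := by rw [ip_dl_left, one_mul]
  rw [h1, ← ip_Ro, Ro_dl hE, ip_smul_left, ip_dl_left, one_mul]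

theorem NN_eq (hb : 0 < b) : 4 / (3 * b ^ 2) * (c₀ + b ^ 2 - b ^ 2 / 4 * n) = NN n b c₀ := by
  unfold NN
  field_simp
  ring

theorem Tm_dl (hb : 0 < b) (hE : ∀ i j, C.Ric i j = if i = j then -(c₀ • (1 : A)) else 0)
    (t : A) : Tm C b (dl t) = NN n b c₀ • dl t := by
  rw [Tm_apply, Ro_dl hE, tr2_dl, map_smul, ← NN_eq hb]
  module

theorem tr2_Tm (hb : 0 < b) (hE : ∀ i j, C.Ric i j = if i = j then -(c₀ • (1 : A)) else 0)
    (k : F2 n A) : tr2 (Tm C b k) = NN n b c₀ • tr2 k := by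
  rw [Tm_apply, map_smul, map_sub, map_add, map_smul, map_smul, tr2_Ro hE, tr2_dl, ← NN_eq hb]
  module

variable (n) in
/-- the trace part -/
def k00 : F2 n A →ₗ[ℝ] F2 n A := (1 / (n : ℝ)) • (dl ∘ₗ tr2)

variable (C b c₀) in
/-- the leafwise constant trace free part -/
def k20 : F2 n A →ₗ[ℝ] F2 n A := (1 / NN n b c₀) • Tm C b - k00 n

variable (C b c₀) in
/-- the leafwise trace free part -/
def k22 : F2 n A →ₗ[ℝ] F2 n A := LinearMap.id - (1 / NN n b c₀) • Tm C b

theorem k00_apply (k : F2 n A) : k00 n k = (1 / (n : ℝ)) • dl (tr2 k) := rfl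

theorem k20_apply (k : F2 n A) : k20 C b c₀ k = (1 / NN n b c₀) • Tm C b k - k00 n k := rfl

theorem k22_apply (k : F2 n A) : k22 C b c₀ k = k - (1 / NN n b c₀) • Tm C b k := rfl

variable (C b c₀) in
theorem sum_types (k : F2 n A) : k00 n k + k20 C b c₀ k + k22 C b c₀ k = k := by
  rw [k20_apply, k22_apply]
  abel

theorem k00_symm {k : F2 n A} (p q : Fin n) : k00 n k p q = k00 n k q p := by
  rw [k00_apply]
  simp only [Pi.smul_apply, dl_apply, eq_comm (a := p) (b := q)]

theorem k20_symm {k : F2 n A} (hk : ∀ p q, k p q = k q p) (p q : Fin n) :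
    k20 C b c₀ k p q = k20 C b c₀ k q p := by
  rw [k20_apply]
  simp only [Pi.sub_apply, Pi.smul_apply, k00_symm p q, Tm_symm C b hk p q]

theorem k22_symm {k : F2 n A} (hk : ∀ p q, k p q = k q p) (p q : Fin n) :
    k22 C b c₀ k p q = k22 C b c₀ k q p := by
  rw [k22_apply]
  simp only [Pi.sub_apply, Pi.smul_apply, hk p q, Tm_symm C b hk p q]

theorem tr2_k00 [NeZero n] (k : F2 n A) : tr2 (k00 n k) = tr2 k := by
  have hn : (n : ℝ) ≠ 0 := Nat.cast_ne_zero.2 (NeZero.ne n)
  rw [k00_apply, map_smul, tr2_dl, smul_smul, one_div, inv_mul_cancel₀ hn, one_smul]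

namespace RankOne

variable (h : RankOne C b c₀) [NeZero n]
include h

theorem tr2_k20 (k : F2 n A) : tr2 (k20 C b c₀ k) = 0 := by
  rw [k20_apply, map_sub, map_smul, tr2_Tm h.pos h.ein, tr2_k00, smul_smul, one_div,
    inv_mul_cancel₀ h.npos.ne', one_smul, sub_self]

theorem tr2_k22 (k : F2 n A) : tr2 (k22 C b c₀ k) = 0 := by
  rw [k22_apply, map_sub, map_smul, tr2_Tm h.pos h.ein, smul_smul, one_div,
    inv_mul_cancel₀ h.npos.ne', one_smul, sub_self]

theorem Tm_k00 (k : F2 n A) : Tm C b (k00 n k) = NN n b c₀ • k00 n k := by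
  rw [k00_apply, map_smul, Tm_dl h.pos h.ein, smul_comm]

theorem Tm_k20 {k : F2 n A} (hk : ∀ p q, k p q = k q p) :
    Tm C b (k20 C b c₀ k) = NN n b c₀ • k20 C b c₀ k := by
  rw [k20_apply, map_sub, map_smul, h.tt k hk, h.Tm_k00, smul_sub, smul_comm]

theorem Tm_k22 {k : F2 n A} (hk : ∀ p q, k p q = k q p) : Tm C b (k22 C b c₀ k) = 0 := by
  rw [k22_apply, map_sub, map_smul, h.tt k hk, smul_smul, one_div,
    inv_mul_cancel₀ h.npos.ne', one_smul, sub_self]

theorem Ro_of_Tm {k : F2 n A} {c : ℝ} (ht : tr2 k = 0) (hT : Tm C b k = c • k) :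
    Ro C k = (3 * b ^ 2 / 4 * c - b ^ 2) • k := by
  have hb := h.pos
  rw [Tm_apply, ht, map_zero, smul_zero, sub_zero] at hT
  have h1 : Ro C k + (b ^ 2) • k = (3 * b ^ 2 / 4) • (c • k) := by
    rw [← hT, smul_smul]
    have : 3 * b ^ 2 / 4 * (4 / (3 * b ^ 2)) = 1 := by field_simp
    rw [this, one_smul]
  rw [eq_sub_of_add_eq h1]
  module

/-- **the curvature operator on type `(2,0)`** -/
theorem Ro_k20 {k : F2 n A} (hk : ∀ p q, k p q = k q p) : Ro C (k20 C b c₀ k) =
    (3 * b ^ 2 / 4 * NN n b c₀ - b ^ 2) • k20 C b c₀ k :=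
  h.Ro_of_Tm (h.tr2_k20 k) (h.Tm_k20 hk)

/-- **the curvature operator on type `(2,2)`** -/
theorem Ro_k22 {k : F2 n A} (hk : ∀ p q, k p q = k q p) : Ro C (k22 C b c₀ k) =
    -(b ^ 2) • k22 C b c₀ k := by
  have h1 := h.Ro_of_Tm (c := 0) (h.tr2_k22 k) (by rw [h.Tm_k22 hk, zero_smul])
  rw [h1]
  congr 1
  ring

/-! ### the projections -/

omit h in
theorem k00_k00 (k : F2 n A) : k00 n (k00 n k) = k00 n k := by
  rw [k00_apply (k00 n k), tr2_k00, ← k00_apply]

theorem k00_k20 (k : F2 n A) : k00 n (k20 C b c₀ k) = 0 := by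
  rw [k00_apply, h.tr2_k20, map_zero, smul_zero]

theorem k00_k22 (k : F2 n A) : k00 n (k22 C b c₀ k) = 0 := by
  rw [k00_apply, h.tr2_k22, map_zero, smul_zero]

theorem k20_k00 (k : F2 n A) : k20 C b c₀ (k00 n k) = 0 := by
  rw [k20_apply, h.Tm_k00, k00_k00, smul_smul, one_div, inv_mul_cancel₀ h.npos.ne', one_smul,
    sub_self]

theorem k20_k20 {k : F2 n A} (hk : ∀ p q, k p q = k q p) :
    k20 C b c₀ (k20 C b c₀ k) = k20 C b c₀ k := by
  rw [k20_apply (k20 C b c₀ k), h.Tm_k20 hk, h.k00_k20, smul_smul, one_div,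
    inv_mul_cancel₀ h.npos.ne', one_smul, sub_zero]

theorem k20_k22 {k : F2 n A} (hk : ∀ p q, k p q = k q p) :
    k20 C b c₀ (k22 C b c₀ k) = 0 := by
  rw [k20_apply, h.Tm_k22 hk, h.k00_k22, smul_zero, sub_zero]

theorem k22_k00 (k : F2 n A) : k22 C b c₀ (k00 n k) = 0 := by
  rw [k22_apply, h.Tm_k00, smul_smul, one_div, inv_mul_cancel₀ h.npos.ne', one_smul, sub_self]

theorem k22_k20 {k : F2 n A} (hk : ∀ p q, k p q = k q p) :
    k22 C b c₀ (k20 C b c₀ k) = 0 := by
  rw [k22_apply, h.Tm_k20 hk, smul_smul, one_div, inv_mul_cancel₀ h.npos.ne', one_smul, sub_self]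

theorem k22_k22 {k : F2 n A} (hk : ∀ p q, k p q = k q p) :
    k22 C b c₀ (k22 C b c₀ k) = k22 C b c₀ k := by
  rw [k22_apply (k22 C b c₀ k), h.Tm_k22 hk, smul_zero, sub_zero]

omit h in
theorem ip_k00 (k l : F2 n A) : ip (k00 n k) l = ip k (k00 n l) := by
  rw [k00_apply, k00_apply, ip_smul_left, ip_smul_right, ip_dl_left, ip_comm k, ip_dl_left,
    mul_comm]

omit h in
theorem ip_k20 (k l : F2 n A) : ip (k20 C b c₀ k) l = ip k (k20 C b c₀ l) := by
  rw [k20_apply, k20_apply, ip_sub_left, ip_sub_right, ip_smul_left, ip_smul_right, ip_Tm, ip_k00]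

omit h in
theorem ip_k22 (k l : F2 n A) : ip (k22 C b c₀ k) l = ip k (k22 C b c₀ l) := by
  rw [k22_apply, k22_apply, ip_sub_left, ip_sub_right, ip_smul_left, ip_smul_right, ip_Tm]

omit h in
theorem ip_zero_right (k : F2 n A) : ip k 0 = 0 := by
  simp [ip]

theorem ip_00_20 (k l : F2 n A) : ip (k00 n k) (k20 C b c₀ l) = 0 := by
  rw [ip_k00, h.k00_k20, ip_zero_right]

theorem ip_00_22 (k l : F2 n A) : ip (k00 n k) (k22 C b c₀ l) = 0 := by
  rw [ip_k00, h.k00_k22, ip_zero_right]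

theorem ip_20_22 (k : F2 n A) {l : F2 n A} (hl : ∀ p q, l p q = l q p) :
    ip (k20 C b c₀ k) (k22 C b c₀ l) = 0 := by
  rw [ip_k20, h.k20_k22 hl, ip_zero_right]

/-- **orthogonality** -/
theorem ip_types {k l : F2 n A} (hk : ∀ p q, k p q = k q p) (hl : ∀ p q, l p q = l q p) :
    ip k l = ip (k00 n k) (k00 n l) + ip (k20 C b c₀ k) (k20 C b c₀ l)
      + ip (k22 C b c₀ k) (k22 C b c₀ l) := by
  conv_lhs => rw [← sum_types C b c₀ k, ← sum_types C b c₀ l]
  simp only [ip_add_left, ip_add_right, h.ip_00_20, h.ip_00_22, h.ip_20_22 k hl,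
    ip_comm (k20 C b c₀ k) (k00 n l), ip_comm (k22 C b c₀ k) (k00 n l),
    ip_comm (k22 C b c₀ k) (k20 C b c₀ l), h.ip_20_22 l hk]
  ring

end RankOne

/-! ### the operators preserve tensors -/

theorem T2_Ro {k : F2 n A} (hk : C.T2 k) : C.T2 (Ro C k) := by
  intro a b i j
  rw [Ro_apply, map_sum]
  simp only [map_sum, Derivation.leibniz, smul_eq_mul, C.VR, hk a b]
  have e1 : ∀ c d, C.R i c j d * (ac a b (fun i' => k i' d) c + ac a b (fun j' => k c j') d)
      + k c d * (ac a b (fun i' => C.R i' c j d) i + ac a b (fun c' => C.R i c' j d) c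
        + ac a b (fun j' => C.R i c j' d) j + ac a b (fun d' => C.R i c j d') d) =
      (ac a b (fun i' => C.R i' c j d) i * k c d + ac a b (fun j' => C.R i c j' d) j * k c d)
      + (ac a b (fun c' => C.R i c' j d) c * k c d + C.R i c j d * ac a b (fun i' => k i' d) c)
      + (ac a b (fun d' => C.R i c j d') d * k c d + C.R i c j d * ac a b (fun j' => k c j') d) := by
    intro c d
    ring
  simp only [e1, Finset.sum_add_distrib]
  have e2 : ∑ c, ∑ d, ac a b (fun c' => C.R i c' j d) c * k c d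
      + ∑ c, ∑ d, C.R i c j d * ac a b (fun i' => k i' d) c = 0 := by
    rw [← Finset.sum_add_distrib]
    simp only [← Finset.sum_add_distrib]
    rw [Finset.sum_comm]
    exact Finset.sum_eq_zero fun d _ => sum_ac_mul a b (fun c' => C.R i c' j d) (fun i' => k i' d)
  have e3 : ∑ c, ∑ d, ac a b (fun d' => C.R i c j d') d * k c d
      + ∑ c, ∑ d, C.R i c j d * ac a b (fun j' => k c j') d = 0 := by
    rw [← Finset.sum_add_distrib]
    simp only [← Finset.sum_add_distrib]
    exact Finset.sum_eq_zero fun c _ => sum_ac_mul a b (fun d' => C.R i c j d') (fun j' => k c j')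
  have e4 : ∑ c, ∑ d, ac a b (fun i' => C.R i' c j d) i * k c d =
      ac a b (fun i' => Ro C k i' j) i := by
    simp only [Ro_apply]
    rw [ac_sum Finset.univ a b (fun c i' => ∑ d, C.R i' c j d * k c d)]
    refine Finset.sum_congr rfl fun c _ => ?_
    rw [ac_sum Finset.univ a b (fun d i' => C.R i' c j d * k c d)]
    exact Finset.sum_congr rfl fun d _ => (ac_mul_right a b (k c d) (fun i' => C.R i' c j d) i).symm
  have e5 : ∑ c, ∑ d, ac a b (fun j' => C.R i c j' d) j * k c d =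
      ac a b (fun j' => Ro C k i j') j := by
    simp only [Ro_apply]
    rw [ac_sum Finset.univ a b (fun c j' => ∑ d, C.R i c j' d * k c d)]
    refine Finset.sum_congr rfl fun c _ => ?_
    rw [ac_sum Finset.univ a b (fun d j' => C.R i c j' d * k c d)]
    exact Finset.sum_congr rfl fun d _ => (ac_mul_right a b (k c d) (fun j' => C.R i c j' d) j).symm
  rw [e4, e5, e2, e3, add_zero, add_zero]

theorem T2_dl {t : A} (ht : C.T0 t) : C.T2 (dl (n := n) t) := by
  have h := (T2_delta (C := C)).mul0 ht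
  have e : (fun i j => t * (if i = j then (1 : A) else 0)) = dl (n := n) t := by
    funext i j
    rw [dl_apply]
    split_ifs <;> simp
  rw [← e]
  exact h

theorem T2_smul (c : ℝ) {k : F2 n A} (hk : C.T2 k) : C.T2 (c • k) := hk.smul c

theorem T2_add {k l : F2 n A} (hk : C.T2 k) (hl : C.T2 l) : C.T2 (k + l) := hk.add hl

theorem T2_sub {k l : F2 n A} (hk : C.T2 k) (hl : C.T2 l) : C.T2 (k - l) := hk.sub hl

theorem T0_tr2 {k : F2 n A} (hk : C.T2 k) : C.T0 (tr2 k) := hk.tr

theorem T2_Tm (b : ℝ) {k : F2 n A} (hk : C.T2 k) : C.T2 (Tm C b k) := by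
  rw [Tm_apply]
  exact T2_smul _ (T2_sub (T2_add (T2_Ro hk) (T2_smul _ hk)) (T2_smul _ (T2_dl (T0_tr2 hk))))

theorem T2_k00 {k : F2 n A} (hk : C.T2 k) : C.T2 (k00 n k) := by
  rw [k00_apply]
  exact T2_smul _ (T2_dl (T0_tr2 hk))

theorem T2_k20 {k : F2 n A} (hk : C.T2 k) : C.T2 (k20 C b c₀ k) := by
  rw [k20_apply]
  exact T2_sub (T2_smul _ (T2_Tm b hk)) (T2_k00 hk)

theorem T2_k22 {k : F2 n A} (hk : C.T2 k) : C.T2 (k22 C b c₀ k) := by
  rw [k22_apply]
  exact T2_sub hk (T2_smul _ (T2_Tm b hk))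

/-! ### the operators are parallel -/

/-- an operator on functions which commutes with the multiplication by the curvature acts
componentwise; this is the action on families -/
def mapF (D : A →ₗ[ℝ] A) : F2 n A →ₗ[ℝ] F2 n A where
  toFun k := fun p q => D (k p q)
  map_add' k l := by funext p q; simp
  map_smul' c k := by funext p q; simp

theorem mapF_apply (D : A →ₗ[ℝ] A) (k : F2 n A) (p q : Fin n) : mapF D k p q = D (k p q) := rfl

theorem mapF_Ro {D : A →ₗ[ℝ] A} (hD : ∀ i j k l f, D (C.R i j k l * f) = C.R i j k l * D f)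
    (k : F2 n A) : mapF D (Ro C k) = Ro C (mapF D k) := by
  funext p q
  rw [mapF_apply, Ro_apply, Ro_apply]
  simp only [map_sum, hD, mapF_apply]

theorem mapF_dl (D : A →ₗ[ℝ] A) (t : A) : mapF D (dl (n := n) t) = dl (D t) := by
  funext p q
  rw [mapF_apply, dl_apply, dl_apply]
  split_ifs <;> simp

theorem tr2_mapF (D : A →ₗ[ℝ] A) (k : F2 n A) : tr2 (mapF D k) = D (tr2 k) := by
  rw [tr2_apply, tr2_apply, map_sum]
  rfl

theorem mapF_Tm {D : A →ₗ[ℝ] A} (hD : ∀ i j k l f, D (C.R i j k l * f) = C.R i j k l * D f)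
    (b : ℝ) (k : F2 n A) : mapF D (Tm C b k) = Tm C b (mapF D k) := by
  rw [Tm_apply, Tm_apply, map_smul, map_sub, map_add, mapF_Ro hD, map_smul, map_smul, mapF_dl,
    tr2_mapF]

theorem mapF_k00 (D : A →ₗ[ℝ] A) (k : F2 n A) : mapF D (k00 n k) = k00 n (mapF D k) := by
  rw [k00_apply, k00_apply, map_smul, mapF_dl, tr2_mapF]

theorem mapF_k20 {D : A →ₗ[ℝ] A} (hD : ∀ i j k l f, D (C.R i j k l * f) = C.R i j k l * D f)
    (k : F2 n A) : mapF D (k20 C b c₀ k) = k20 C b c₀ (mapF D k) := by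
  rw [k20_apply, k20_apply, map_sub, map_smul, mapF_Tm hD, mapF_k00]

theorem mapF_k22 {D : A →ₗ[ℝ] A} (hD : ∀ i j k l f, D (C.R i j k l * f) = C.R i j k l * D f)
    (k : F2 n A) : mapF D (k22 C b c₀ k) = k22 C b c₀ (mapF D k) := by
  rw [k22_apply, k22_apply, map_sub, map_smul, mapF_Tm hD]

/-- the horizontal derivations commute with the curvature -/
theorem H_R (hP : C.Par) (m : Fin n) (i j k l : Fin n) (f : A) :
    (C.H m : A →ₗ[ℝ] A) (C.R i j k l * f) = C.R i j k l * (C.H m : A →ₗ[ℝ] A) f := by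
  change C.H m (C.R i j k l * f) = C.R i j k l * C.H m f
  rw [Derivation.leibniz, hP m i j k l]
  simp

/-- the Casimir operator commutes with the curvature -/
theorem cas_R (hP : C.Par) (i j k l : Fin n) (f : A) :
    C.casL (C.R i j k l * f) = C.R i j k l * C.casL f :=
  (hP.isPar i j k l).cas_mul f

end Vale.Agent.P207.H469
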