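import Vale.Agent.P207.H571.Inv
import Vale.Agent.P207.H469.KPr

/-!
# P207 / H469: fibre averages and vertical Laplacians of quadratic functions
-/

set_option linter.unusedSectionVars false

noncomputable section

namespace Vale.Agent.P207.H469

open Finset Vale.Agent.P207.H442 Vale.Agent.P207.H442.FrCalc Vale.Agent.P207.H571

variable {n : ℕ} {A : Type*} [CommRing A] [Algebra ℝ A] {C : FrCalc n A} {I : A →ₗ[ℝ] ℝ}
  {k l : F2 n A} {o : Fin n}

/-! ### derivatives of `k o o` -/

theorem V_oo (hk : C.T2 k) {j : Fin n} (hj : j ≠ o) : C.V j o (k o o) = k j o + k o j := by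
  rw [hk]
  simp only [ac, if_true, if_neg hj]
  ring

theorem V_jo (hk : C.T2 k) {i j : Fin n} (hi : i ≠ o) (hj : j ≠ o) :
    C.V i o (k j o) = k j i - (if i = j then k o o else 0) := by
  rw [hk]
  have hj' : o ≠ j := fun h => hj h.symm
  simp only [ac, if_true, if_neg hi, if_neg hj']
  ring

theorem V_oj (hk : C.T2 k) {i j : Fin n} (hi : i ≠ o) (hj : j ≠ o) :
    C.V i o (k o j) = k i j - (if i = j then k o o else 0) := by
  rw [hk]
  have hj' : o ≠ j := fun h => hj h.symm
  simp only [ac, if_true, if_neg hi, if_neg hj']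
  ring

/-! ### the average of a product -/

/-- **the average of `k(v,v) l(v,v)` over the fibre** -/
theorem avg_00 (hI : C.IsInt I) (hk : C.T2 k) (hl : C.T2 l) (hks : ∀ p q, k p q = k q p)
    (hls : ∀ p q, l p q = l q p) (o : Fin n) :
    (n : ℝ) * (n + 2) * I (k o o * l o o) = 2 * I (ip k l) + I (tr2 k * tr2 l) := by
  have h1 : ∀ j, I (k o o * l j j) - I (k o o * l o o) + 2 * I (k o j * l o j) =
      if j = o then 2 * I (k o o * l o o) else 0 := by
    intro j
    by_cases hj : j = o
    · subst hj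
      rw [if_pos rfl]
      ring
    · rw [if_neg hj]
      have h2 := hI.ver j o (k o o * l j o)
      rw [Derivation.leibniz, V_oo hk hj, V_jo hl hj hj, if_pos rfl, smul_eq_mul, smul_eq_mul,
        map_add, mul_sub, map_sub, hks j o, hls j o] at h2
      have h3 : l o j * (k o j + k o j) = (2 : ℝ) • (k o j * l o j) := by
        rw [two_smul]; ring
      rw [h3, map_smul, smul_eq_mul] at h2
      linarith
  have h2 : ∑ j, (I (k o o * l j j) - I (k o o * l o o) + 2 * I (k o j * l o j)) =
      2 * I (k o o * l o o) := by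
    simp only [h1, Finset.sum_ite_eq', Finset.mem_univ, if_true]
  have e1 : ∑ j, I (k o o * l j j) = I (k o o * ∑ j, l j j) := by rw [Finset.mul_sum, map_sum]
  have e2 : ∑ j, I (k o j * l o j) = I (∑ j, k o j * l o j) := by rw [map_sum]
  rw [Finset.sum_add_distrib, Finset.sum_sub_distrib, ← Finset.mul_sum, e1, e2,
    Finset.sum_const, Finset.card_univ, Fintype.card_fin, nsmul_eq_mul] at h2
  have h3 := avg_tr hI (T2_mul_tr hk hl) o
  have h4 := avg_tr hI (hk.mul0 (T0_tr2 hl)) o
  have h5 : I (∑ i, tr2 l * k i i) = I (tr2 k * tr2 l) := by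
    rw [← Finset.mul_sum, ← tr2_apply, mul_comm]
  have h6 : I (tr2 l * k o o) = I (k o o * ∑ j, l j j) := by rw [tr2_apply, mul_comm]
  rw [h5, h6] at h4
  have h7 : I (∑ c, ∑ i, k c i * l c i) = I (ip k l) := rfl
  rw [h7] at h3
  linear_combination -(n : ℝ) * h2 + 2 * h3 + h4

/-! ### vertical Laplacians -/

variable (C) in
/-- the vertical Laplacian (minus the sum of squares) -/
def DlT (o : Fin n) (F : A) : A := -∑ i, C.V i o (C.V i o F)

variable (C) in
/-- the components of the projection on the eigenspace of `b²` -/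
def P2 (b : ℝ) (o i j : Fin n) : A :=
  (4 / (3 * b ^ 2)) • (C.R o i o j -
    (b ^ 2 / 4) • ((if i = j then 1 else 0) - (if i = o then (if j = o then 1 else 0) else 0)))

variable (C) in
/-- the leafwise vertical Laplacian -/
def Dl2 (b : ℝ) (o : Fin n) (F : A) : A := -∑ i, ∑ j, C.V i o (P2 C b o i j * C.V j o F)

theorem P2_left (b : ℝ) (o j : Fin n) : P2 C b o o j = 0 := by
  unfold P2
  have h1 : ((if o = j then (1 : A) else 0) - (if o = o then (if j = o then 1 else 0) else 0))
      = 0 := by
    rw [if_pos rfl]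
    simp only [eq_comm (a := o) (b := j), sub_self]
  rw [R_self, h1, smul_zero, sub_zero, smul_zero]

theorem P2_symm (b : ℝ) (o i j : Fin n) : P2 C b o i j = P2 C b o j i := by
  unfold P2
  rw [C.R_pair o i o j]
  by_cases hij : i = j
  · subst hij; rfl
  · have hji : ¬ j = i := fun h => hij h.symm
    rw [if_neg hij, if_neg hji]
    congr 4
    split_ifs <;> rfl

theorem P2_right (b : ℝ) (o i : Fin n) : P2 C b o i o = 0 := by rw [P2_symm, P2_left]

theorem V_const (a c : Fin n) (p : Prop) [Decidable p] : C.V a c (if p then (1 : A) else 0) = 0 := by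
  split_ifs <;> simp

variable {b c₀ : ℝ}

theorem sum_V_P2 (hE : ∀ i j, C.Ric i j = if i = j then -(c₀ • (1 : A)) else 0) (b : ℝ)
    (o j : Fin n) : ∑ i, C.V i o (P2 C b o i j) = 0 := by
  have h1 : ∀ i, C.V i o (P2 C b o i j) = (4 / (3 * b ^ 2)) • (C.R o i i j +
      (if o = j then C.R o i o i else 0)) := by
    intro i
    unfold P2
    have h3 : C.V i o ((if i = j then (1 : A) else 0) -
        (if i = o then (if j = o then 1 else 0) else 0)) = 0 := by
      rw [map_sub, V_const]
      by_cases hi : i = o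
      · rw [if_pos hi, V_const, sub_zero]
      · rw [if_neg hi, map_zero, sub_zero]
    rw [Derivation.map_smul, map_sub, Derivation.map_smul, h3, smul_zero, sub_zero]
    congr 1
    by_cases hi : i = o
    · subst hi
      rw [V_self, R_self, zero_add, R_self]
      split_ifs <;> rfl
    · rw [C.VR]
      simp only [ac, if_true, if_neg hi]
      have hi' : ¬ o = i := fun h => hi h.symm
      rw [if_neg hi', R_self i o j, R_self o o j]
      have h4 : (if i = j then C.R o i o o else 0) = 0 := by
        split_ifs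
        · rw [C.R_pair, R_self]
        · rfl
      rw [h4]
      ring
  simp only [h1]
  rw [← Finset.smul_sum, Finset.sum_add_distrib]
  have h2 : ∑ i, C.R o i i j = C.Ric o j := rfl
  rw [h2, hE]
  by_cases hj : o = j
  · subst hj
    simp only [if_true]
    rw [sum_R_ein hE, if_pos rfl, neg_add_cancel, smul_zero]
  · simp only [if_neg hj, Finset.sum_const_zero, add_zero, smul_zero]

theorem Dl2_eq (hE : ∀ i j, C.Ric i j = if i = j then -(c₀ • (1 : A)) else 0) (F : A) :
    Dl2 C b o F = -∑ i, ∑ j, P2 C b o i j * C.V i o (C.V j o F) := by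
  unfold Dl2
  congr 1
  simp only [Derivation.leibniz, smul_eq_mul, Finset.sum_add_distrib]
  have h1 : ∑ i, ∑ j, C.V j o F * C.V i o (P2 C b o i j) = 0 := by
    rw [Finset.sum_comm]
    refine Finset.sum_eq_zero fun j _ => ?_
    rw [← Finset.mul_sum, sum_V_P2 hE, mul_zero]
  rw [h1, add_zero]

theorem V_V_oo (hk : C.T2 k) (hks : ∀ p q, k p q = k q p) {i j : Fin n} (hi : i ≠ o)
    (hj : j ≠ o) : C.V i o (C.V j o (k o o)) =
      (2 : ℝ) • (k i j - (if i = j then k o o else 0)) := by
  rw [V_oo hk hj, map_add, V_jo hk hi hj, V_oj hk hi hj, hks j i, two_smul]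

/-- the full vertical Laplacian of `k(v,v)` -/
theorem DlT_oo (hk : C.T2 k) (hks : ∀ p q, k p q = k q p) :
    DlT C o (k o o) = (2 * n : ℝ) • k o o - (2 : ℝ) • tr2 k := by
  unfold DlT
  have h1 : ∀ i, C.V i o (C.V i o (k o o)) = (2 : ℝ) • (k i i - k o o) := by
    intro i
    by_cases hi : i = o
    · subst hi
      rw [V_self, sub_self, smul_zero]
    · rw [V_V_oo hk hks hi hi, if_pos rfl]
  simp only [h1]
  rw [← Finset.smul_sum, Finset.sum_sub_distrib, ← tr2_apply, Finset.sum_const, Finset.card_univ,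
    Fintype.card_fin, ← Nat.cast_smul_eq_nsmul ℝ]
  module

theorem sum_P2_mul (hb : 0 < b) (k : F2 n A) : ∑ i, ∑ j, P2 C b o i j * k i j = Tm C b k o o - k o o := by
  have h1 : ∀ i j, P2 C b o i j * k i j = (4 / (3 * b ^ 2)) • (C.R o i o j * k i j -
      (b ^ 2 / 4) • ((if i = j then k i j else 0)
        - (if i = o then (if j = o then k i j else 0) else 0))) := by
    intro i j
    unfold P2
    rw [smul_mul_assoc, sub_mul, smul_mul_assoc, sub_mul]
    simp only [ite_mul, one_mul, zero_mul]
  have h2 : ∑ i, ∑ j, (if i = o then (if j = o then k i j else 0) else 0) = k o o := by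
    rw [Finset.sum_eq_single o, Finset.sum_eq_single o]
    · simp
    · intro j _ hj; simp [hj]
    · intro h; exact absurd (Finset.mem_univ _) h
    · intro i _ hi; simp [hi]
    · intro h; exact absurd (Finset.mem_univ _) h
  simp only [h1, ← Finset.smul_sum, Finset.sum_sub_distrib, h2, Finset.sum_ite_eq,
    Finset.mem_univ, if_true]
  rw [Tm_apply]
  simp only [Pi.smul_apply, Pi.add_apply, Pi.sub_apply, dl_apply, if_true]
  rw [← Ro_apply, ← tr2_apply]
  match_scalars
  · ring
  · ring
  · field_simp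
    ring

theorem sum_P2_tr (hb : 0 < b) (hE : ∀ i j, C.Ric i j = if i = j then -(c₀ • (1 : A)) else 0)
    (o : Fin n) : ∑ i, P2 C b o i i = (NN n b c₀ - 1) • (1 : A) := by
  have h1 := sum_P2_mul (C := C) (o := o) hb (dl (n := n) (1 : A))
  rw [Tm_dl hb hE] at h1
  simp only [Pi.smul_apply, dl_apply, if_true, mul_ite, mul_one, mul_zero, Finset.sum_ite_eq,
    Finset.mem_univ] at h1
  rw [h1, sub_smul, one_smul]

/-- **the leafwise vertical Laplacian of `k(v,v)`** -/
theorem Dl2_oo (hb : 0 < b) (hE : ∀ i j, C.Ric i j = if i = j then -(c₀ • (1 : A)) else 0)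
    (hk : C.T2 k) (hks : ∀ p q, k p q = k q p) :
    Dl2 C b o (k o o) = (2 : ℝ) • (NN n b c₀ • k o o - Tm C b k o o) := by
  rw [Dl2_eq hE]
  have h1 : ∀ i j, P2 C b o i j * C.V i o (C.V j o (k o o)) =
      (2 : ℝ) • (P2 C b o i j * k i j - (if i = j then P2 C b o i j * k o o else 0)) := by
    intro i j
    by_cases hi : i = o
    · subst hi
      rw [P2_left]
      simp
    · by_cases hj : j = o
      · subst hj
        rw [P2_right]
        simp
      · rw [V_V_oo hk hks hi hj, mul_smul_comm, mul_sub]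
        split_ifs <;> simp
  simp only [h1, ← Finset.smul_sum, Finset.sum_sub_distrib, Finset.sum_ite_eq,
    Finset.mem_univ, if_true]
  rw [sum_P2_mul hb, ← Finset.sum_mul, sum_P2_tr hb hE, smul_mul_assoc, one_mul]
  module

end Vale.Agent.P207.H469
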