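import Vale.Agent.P207.N3.H545.Interp

/-!
# P207, line N4: interpolation on a ball, up to the boundary

`exists_interp_full`: a smooth map with `C^k` bounds on a ball which is of size `ρ` has all its
derivatives of size `ρ^(1 - ε)` on the same ball.
-/

set_option maxSynthPendingDepth 3

noncomputable section

open Set Filter Topology Metric
open scoped ContDiff

namespace Vale.Agent.P207.H469

universe u

/-- the first derivative, up to the boundary of the ball -/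
theorem exists_fderiv_ball {R : ℝ} (hR : 0 < R) (n : ℕ) : ∃ C : ℝ, 0 ≤ C ∧
    ∀ (E F : Type u) [NormedAddCommGroup E] [NormedSpace ℝ E] [NormedAddCommGroup F]
      [NormedSpace ℝ F] (Z : E → F) (h M₀ M₁ : ℝ), 0 < h → h ≤ 1 →
      ContDiffOn ℝ (n + 2 : ℕ) Z (ball 0 R) →
      (∀ y ∈ ball (0 : E) R, ‖Z y‖ ≤ M₀) →
      (∀ y ∈ ball (0 : E) R, ‖iteratedFDeriv ℝ (n + 2) Z y‖ ≤ M₁) →
      ∀ x ∈ ball (0 : E) R, ‖fderiv ℝ Z x‖ ≤ C * (h⁻¹ * M₀ + h ^ (n + 1) * M₁) := by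
  obtain ⟨C₁, hC₁, H⟩ := N3.H545.exists_deriv_interp.{u} n
  refine ⟨2 * C₁ * (1 + (2 * R) ^ (n + 2)) * (2 / R), by positivity, ?_⟩
  intro E F _ _ _ _ Z h M₀ M₁ hh hh1 hZ hM₀ hM₁ x hx
  have hM₀0 : 0 ≤ M₀ := (norm_nonneg _).trans (hM₀ x hx)
  have hM₁0 : 0 ≤ M₁ := (norm_nonneg _).trans (hM₁ x hx)
  have hxn : ‖x‖ < R := mem_ball_zero_iff.1 hx
  set K : ℝ := C₁ * (h⁻¹ * M₀ + h ^ (n + 1) * ((2 * R) ^ (n + 2) * M₁)) with hK
  have hK0 : 0 ≤ K := by positivity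
  have key : ∀ w ∈ ball (0 : E) R, ‖fderiv ℝ Z x (w - x)‖ ≤ K := by
    intro w hw
    have hwn : ‖w‖ < R := mem_ball_zero_iff.1 hw
    have hmem : ∀ t ∈ Icc 0 h, x + t • (w - x) ∈ ball (0 : E) R := by
      intro t ht
      have e : x + t • (w - x) = (1 - t) • x + t • w := by module
      rw [e]
      exact convex_ball (0 : E) R hx hw (by linarith [ht.2]) ht.1 (by ring)
    have hcd : ∀ t ∈ Icc 0 h, ContDiffAt ℝ (n + 2 : ℕ) Z (x + t • (w - x)) := fun t ht =>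
      hZ.contDiffAt (isOpen_ball.mem_nhds (hmem t ht))
    have h0 : (0 : ℝ) ∈ Icc 0 h := ⟨le_rfl, hh.le⟩
    have hd : deriv (fun t : ℝ => Z (x + t • (w - x))) 0 = fderiv ℝ Z x (w - x) := by
      have h1 : HasFDerivAt Z (fderiv ℝ Z x) (x + (0 : ℝ) • (w - x)) := by
        have := hcd 0 h0
        rw [zero_smul, add_zero] at this ⊢
        exact (this.differentiableAt (by exact_mod_cast (by omega : n + 2 ≠ 0))).hasFDerivAt
      have h2 : HasDerivAt (fun t : ℝ => x + t • (w - x)) (w - x) 0 := by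
        simpa using ((hasDerivAt_id (0 : ℝ)).smul_const (w - x)).const_add x
      exact (h1.comp_hasDerivAt (0 : ℝ) h2).deriv
    rw [← hd]
    refine H F (fun t : ℝ => Z (x + t • (w - x))) h M₀ ((2 * R) ^ (n + 2) * M₁) hh ?_ ?_ ?_
    · intro t ht
      have h2 : ContDiffAt ℝ (n + 2 : ℕ) (fun t : ℝ => x + t • (w - x)) t := by fun_prop
      exact (hcd t ht).comp t h2
    · exact fun t ht => hM₀ _ (hmem t ht)
    · intro t ht
      refine (N3.H545.norm_iteratedDeriv_line_le (hcd t ht)).trans ?_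
      rw [mul_comm]
      have h3 : ‖w - x‖ ≤ 2 * R := (norm_sub_le _ _).trans (by linarith)
      exact mul_le_mul (pow_le_pow_left₀ (norm_nonneg _) h3 _) (hM₁ _ (hmem t ht))
        (norm_nonneg _) (by positivity)
  have key2 : ∀ v ∈ ball (0 : E) R, ‖fderiv ℝ Z x v‖ ≤ 2 * K := by
    intro v hv
    have e : fderiv ℝ Z x v = fderiv ℝ Z x (v - x) - fderiv ℝ Z x (0 - x) := by
      rw [← map_sub]
      congr 1
      abel
    rw [e]
    have h1 := key v hv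
    have h2 := key 0 (mem_ball_self hR)
    exact (norm_sub_le _ _).trans (by linarith)
  have hfin : ‖fderiv ℝ Z x‖ ≤ 2 * K * (2 / R) := by
    refine ContinuousLinearMap.opNorm_le_bound _ (by positivity) fun v => ?_
    rcases eq_or_ne v 0 with rfl | hv
    · simp
    · have hvn : 0 < ‖v‖ := norm_pos_iff.2 hv
      have hs : (0 : ℝ) < R / 2 / ‖v‖ := by positivity
      have h1 := key2 ((R / 2 / ‖v‖) • v) (by
        rw [mem_ball_zero_iff, norm_smul, Real.norm_of_nonneg hs.le, div_mul_cancel₀ _ hvn.ne']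
        linarith)
      rw [map_smul, norm_smul, Real.norm_of_nonneg hs.le] at h1
      have h2 : ‖fderiv ℝ Z x v‖ = (R / 2 / ‖v‖ * ‖fderiv ℝ Z x v‖) * (2 / R) * ‖v‖ := by
        field_simp
      rw [h2]
      gcongr
  refine hfin.trans ?_
  have h4 : K ≤ C₁ * (1 + (2 * R) ^ (n + 2)) * (h⁻¹ * M₀ + h ^ (n + 1) * M₁) := by
    rw [hK, mul_assoc]
    refine mul_le_mul_of_nonneg_left ?_ hC₁
    have p1 : 0 ≤ h⁻¹ * M₀ := by positivity
    have p2 : 0 ≤ h ^ (n + 1) * M₁ := by positivity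
    have p3 : 0 ≤ (2 * R) ^ (n + 2) := by positivity
    nlinarith [mul_nonneg p3 p1]
  calc 2 * K * (2 / R) ≤ 2 * (C₁ * (1 + (2 * R) ^ (n + 2)) * (h⁻¹ * M₀ + h ^ (n + 1) * M₁)) *
        (2 / R) := by gcongr
    _ = 2 * C₁ * (1 + (2 * R) ^ (n + 2)) * (2 / R) * (h⁻¹ * M₀ + h ^ (n + 1) * M₁) := by ring

/-- the case `ε ≤ 1` -/
theorem exists_interp_aux {R : ℝ} (hR : 0 < R) (i : ℕ) : ∀ {ε : ℝ}, 0 < ε → ε ≤ 1 → ∀ M : ℕ → ℝ,
    ∃ C : ℝ, 0 ≤ C ∧
    ∀ (E F : Type u) [NormedAddCommGroup E] [NormedSpace ℝ E] [NormedAddCommGroup F]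
      [NormedSpace ℝ F] (Z : E → F), ContDiffOn ℝ ∞ Z (ball 0 R) →
      (∀ k, ∀ y ∈ ball (0 : E) R, ‖iteratedFDeriv ℝ k Z y‖ ≤ M k) →
      ∀ ρ : ℝ, 0 < ρ → ρ ≤ 1 → (∀ y ∈ ball (0 : E) R, ‖Z y‖ ≤ ρ) →
      ∀ x ∈ ball (0 : E) R, ‖iteratedFDeriv ℝ i Z x‖ ≤ C * ρ ^ (1 - ε) := by
  induction i with
  | zero =>
    intro ε hε hε1 M
    refine ⟨1, zero_le_one, ?_⟩
    intro E F _ _ _ _ Z _ _ ρ hρ hρ1 h x hx
    rw [norm_iteratedFDeriv_zero, one_mul]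
    refine (h x hx).trans ?_
    calc ρ = ρ ^ (1 : ℝ) := (Real.rpow_one ρ).symm
      _ ≤ ρ ^ (1 - ε) := Real.rpow_le_rpow_of_exponent_ge hρ hρ1 (by linarith)
  | succ i ih =>
    intro ε hε hε1 M
    obtain ⟨n, hn⟩ := exists_nat_ge (2 / ε)
    obtain ⟨C₁, hC₁, H₁⟩ := exists_fderiv_ball.{u} hR n
    set K : ℝ := C₁ * (1 + |M (n + 2)|) + 1 with hK
    have hK1 : 1 ≤ K := by
      have : 0 ≤ C₁ * (1 + |M (n + 2)|) := by positivity
      linarith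
    have hK0 : 0 < K := by linarith
    obtain ⟨C₂, hC₂, H₂⟩ := ih (half_pos hε) (by linarith) (fun k => M (k + 1))
    refine ⟨K * C₂, by positivity, ?_⟩
    intro E F _ _ _ _ Z hZ hM ρ hρ hρ1 h x hx
    have hh0 : 0 < ρ ^ (ε / 2) := Real.rpow_pos_of_pos hρ _
    have hh1 : ρ ^ (ε / 2) ≤ 1 := Real.rpow_le_one hρ.le hρ1 (by positivity)
    have hρ' : 0 < ρ ^ (1 - ε / 2) := Real.rpow_pos_of_pos hρ _
    have hρ'1 : ρ ^ (1 - ε / 2) ≤ 1 := Real.rpow_le_one hρ.le hρ1 (by linarith)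
    -- the size of the derivative
    have h1 : ∀ y ∈ ball (0 : E) R, ‖fderiv ℝ Z y‖ ≤ K * ρ ^ (1 - ε / 2) := by
      intro y hy
      have h3 := H₁ E F Z (ρ ^ (ε / 2)) ρ |M (n + 2)| hh0 hh1
        (contDiffOn_infty.1 hZ (n + 2)) h
        (fun z hz => (hM _ z hz).trans (le_abs_self _)) y hy
      refine h3.trans ?_
      have e1 : (ρ ^ (ε / 2))⁻¹ * ρ = ρ ^ (1 - ε / 2) := by
        rw [← Real.rpow_neg hρ.le]
        nth_rewrite 2 [← Real.rpow_one ρ]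
        rw [← Real.rpow_add hρ]
        congr 1
        ring
      have e2 : (ρ ^ (ε / 2)) ^ (n + 1) ≤ ρ ^ (1 - ε / 2) := by
        rw [← Real.rpow_natCast, ← Real.rpow_mul hρ.le]
        refine Real.rpow_le_rpow_of_exponent_ge hρ hρ1 ?_
        have h5 : 1 ≤ ε / 2 * n := by
          have := (div_le_iff₀ hε).1 hn
          linarith
        push_cast
        nlinarith
      rw [e1]
      have e3 : (ρ ^ (ε / 2)) ^ (n + 1) * |M (n + 2)| ≤ ρ ^ (1 - ε / 2) * |M (n + 2)| :=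
        mul_le_mul_of_nonneg_right e2 (abs_nonneg _)
      calc C₁ * (ρ ^ (1 - ε / 2) + (ρ ^ (ε / 2)) ^ (n + 1) * |M (n + 2)|)
          ≤ C₁ * (ρ ^ (1 - ε / 2) + ρ ^ (1 - ε / 2) * |M (n + 2)|) := by gcongr
        _ = C₁ * (1 + |M (n + 2)|) * ρ ^ (1 - ε / 2) := by ring
        _ ≤ K * ρ ^ (1 - ε / 2) := by
            refine mul_le_mul_of_nonneg_right ?_ hρ'.le
            rw [hK]; linarith
    set W : E → E →L[ℝ] F := fun y => K⁻¹ • fderiv ℝ Z y with hW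
    have hfd : ContDiffOn ℝ ∞ (fderiv ℝ Z) (ball (0 : E) R) := by
      intro y hy
      exact ((hZ.contDiffAt (isOpen_ball.mem_nhds hy)).fderiv_right
        (m := ∞) (by simp)).contDiffWithinAt
    have hWs : ContDiffOn ℝ ∞ W (ball (0 : E) R) := hfd.const_smul K⁻¹
    have hWi : ∀ (k : ℕ) (y : E), y ∈ ball (0 : E) R →
        ‖iteratedFDeriv ℝ k W y‖ = K⁻¹ * ‖iteratedFDeriv ℝ (k + 1) Z y‖ := by
      intro k y hy
      have h2 : ContDiffAt ℝ k (fderiv ℝ Z) y :=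
        (hfd.contDiffAt (isOpen_ball.mem_nhds hy)).of_le (by exact_mod_cast le_top)
      have h3 : iteratedFDeriv ℝ k W y = K⁻¹ • iteratedFDeriv ℝ k (fderiv ℝ Z) y :=
        iteratedFDeriv_const_smul_apply (a := K⁻¹) h2
      rw [h3, norm_smul, Real.norm_of_nonneg (inv_nonneg.2 hK0.le), norm_iteratedFDeriv_fderiv]
    have h4 := H₂ E (E →L[ℝ] F) W hWs (fun k y hy => by
        rw [hWi k y hy]
        have h5 := hM (k + 1) y hy
        have h6 : K⁻¹ ≤ 1 := inv_le_one_of_one_le₀ hK1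
        have h7 : 0 ≤ K⁻¹ := inv_nonneg.2 hK0.le
        nlinarith [norm_nonneg (iteratedFDeriv ℝ (k + 1) Z y)])
      (ρ ^ (1 - ε / 2)) hρ' hρ'1 (fun y hy => by
        change ‖K⁻¹ • fderiv ℝ Z y‖ ≤ _
        rw [norm_smul, Real.norm_of_nonneg (inv_nonneg.2 hK0.le), inv_mul_le_iff₀ hK0]
        exact h1 y hy) x hx
    rw [hWi i x hx, inv_mul_le_iff₀ hK0, ← Real.rpow_mul hρ.le] at h4
    refine h4.trans ?_
    rw [← mul_assoc]
    refine mul_le_mul_of_nonneg_left ?_ (by positivity)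
    refine Real.rpow_le_rpow_of_exponent_ge hρ hρ1 ?_
    nlinarith

/-- **Interpolation on a ball, up to the boundary**: a map of size `ρ` with bounds for all
derivatives has all its derivatives of size `ρ ^ (1 - ε)`. -/
theorem exists_interp_full {R : ℝ} (hR : 0 < R) (i : ℕ) {ε : ℝ} (hε : 0 < ε) (M : ℕ → ℝ) :
    ∃ C : ℝ, 0 ≤ C ∧
    ∀ (E F : Type u) [NormedAddCommGroup E] [NormedSpace ℝ E] [NormedAddCommGroup F]
      [NormedSpace ℝ F] (Z : E → F), ContDiffOn ℝ ∞ Z (ball 0 R) →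
      (∀ k, ∀ y ∈ ball (0 : E) R, ‖iteratedFDeriv ℝ k Z y‖ ≤ M k) →
      ∀ ρ : ℝ, 0 < ρ → ρ ≤ 1 → (∀ y ∈ ball (0 : E) R, ‖Z y‖ ≤ ρ) →
      ∀ x ∈ ball (0 : E) R, ‖iteratedFDeriv ℝ i Z x‖ ≤ C * ρ ^ (1 - ε) := by
  obtain ⟨C, hC, H⟩ := exists_interp_aux.{u} hR i (lt_min hε one_pos) (min_le_right ε 1) M
  refine ⟨C, hC, ?_⟩
  intro E F _ _ _ _ Z hZ hM ρ hρ hρ1 h x hx
  refine (H E F Z hZ hM ρ hρ hρ1 h x hx).trans ?_
  refine mul_le_mul_of_nonneg_left ?_ hC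
  refine Real.rpow_le_rpow_of_exponent_ge hρ hρ1 ?_
  have := min_le_left ε 1
  linarith

end Vale.Agent.P207.H469

end
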