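import Vale.Agent.P207.H747.Alg3

/-!
# P207 / H469: the leaf average on symmetric tensors

For a parallel negatively curved curvature tensor the projections on the leaves
`L(v) = ℝ v + E_{b²}(v)` are quadratic in `v`, and constant on the unit vectors of a leaf. So the
leaf average `T` is an operator on symmetric tensors, affine in the curvature operator `Ro`, and
`T T = (d + 1) T`.
-/

open scoped RealInnerProductSpace
open Module

noncomputable section

set_option linter.unusedSectionVars false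

namespace Vale.Agent.P207.H469

open Vale.Agent.P207.H747 Vale.Agent.P207.H747.ACT

variable {V : Type*} [NormedAddCommGroup V] [InnerProductSpace ℝ V]
  {S : ACT V} {b : ℝ} {v w x y z u : V}

/-! ### the projection on the leaf -/

/-- the projection on the leaf of `v` (homogeneous of degree two in `v`) -/
def LP (S : ACT V) (b : ℝ) (v z : V) : V :=
  (4 / (3 * b ^ 2)) • (S.K v z - (b ^ 2 / 4) • (⟪v, v⟫ • z - ⟪v, z⟫ • v)) + ⟪v, z⟫ • v

theorem LP_symm (v z w : V) : ⟪LP S b v z, w⟫ = ⟪z, LP S b v w⟫ := by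
  unfold LP
  simp only [inner_add_left, inner_sub_left, inner_add_right, inner_sub_right,
    real_inner_smul_left, real_inner_smul_right, S.K_symm v z w, real_inner_comm v z]
  ring

theorem LP_of_eig (hb : 0 < b) (hv : ⟪v, v⟫ = 1) (hx : S.K v x = (b ^ 2) • x) :
    LP S b v x = x := by
  have h1 : ⟪v, x⟫ = 0 := by
    rw [real_inner_comm]; exact orth_of_eig (by positivity) hx
  unfold LP
  rw [hx, hv, h1, zero_smul, sub_zero, one_smul, add_zero, ← sub_smul, smul_smul]
  have : 4 / (3 * b ^ 2) * (b ^ 2 - b ^ 2 / 4) = 1 := by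
    field_simp
    ring
  rw [this, one_smul]

theorem LP_self (hv : ⟪v, v⟫ = 1) : LP S b v v = v := by
  unfold LP
  rw [K_self, hv]
  match_scalars
  ring

theorem LP_add (v z w : V) : LP S b v (z + w) = LP S b v z + LP S b v w := by
  unfold LP
  simp only [map_add, inner_add_right]
  module

theorem LP_smul (c : ℝ) (v z : V) : LP S b v (c • z) = c • LP S b v z := by
  unfold LP
  simp only [map_smul, real_inner_smul_right]
  module

/-- the curvature on a leaf -/
theorem R_v_E (hb : 0 < b) (hv : ⟪v, v⟫ = 1) (hB : S.Bd v b) (hx : S.K v x = (b ^ 2) • x)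
    (hy : S.K v y = (b ^ 2) • y) : S.R v x y = -(b ^ 2 * ⟪x, y⟫) • v := by
  have h1 := K_rho hx hy
  have h2 := rho_rel hb hb hB hx hy
  rw [div_self hb.ne', one_smul] at h2
  rw [← h2, ← sub_smul] at h1
  have h3 : S.K v (S.R v x y) = 0 := by
    rw [h1]
    have : b ^ 2 + b ^ 2 - 2 * b ^ 2 = 0 := by ring
    rw [this, zero_smul]
  have h4 := ker_K hv h3
  have h5 : ⟪S.R v x y, v⟫ = -(b ^ 2 * ⟪x, y⟫) := by
    rw [S.skew, ← K_apply, hx, real_inner_smul_right, real_inner_comm]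
  rw [h4, h5]

theorem R_E_v (hb : 0 < b) (hv : ⟪v, v⟫ = 1) (hB : S.Bd v b) (hx : S.K v x = (b ^ 2) • x)
    (hy : S.K v y = (b ^ 2) • y) : S.R x y v = 0 := by
  rw [R_apply_v, R_v_E hb hv hB hx hy, R_v_E hb hv hB hy hx, real_inner_comm, sub_self]

theorem R_E_E (hb : 0 < b) (hv : ⟪v, v⟫ = 1) (hB : S.Bd v b) (hx : S.K v x = (b ^ 2) • x)
    (hy : S.K v y = (b ^ 2) • y) (hz : S.K v z = (b ^ 2) • z) :
    S.R x y z = (b ^ 2) • (⟪x, z⟫ • y - ⟪y, z⟫ • x) := by
  have h1 := S.comm_rho v x y z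
  rw [R_v_E hb hv hB hy hz, R_v_E hb hv hB hx hz, R_v_E hb hv hB hx hy, hx, map_smul, map_smul,
    map_smul, map_smul, LinearMap.smul_apply, LinearMap.smul_apply, ← K_apply, ← K_apply, hx, hy,
    R_self, smul_zero, LinearMap.zero_apply, add_zero] at h1
  have h2 : S.R x y z = (b ^ 2)⁻¹ • (b ^ 2) • S.R x y z := by
    rw [smul_smul, inv_mul_cancel₀ (by positivity), one_smul]
  rw [h2, ← h1]
  match_scalars
  · field_simp
  · field_simp

/-- the curvature on a leaf -/
theorem R_leaf (hb : 0 < b) (hv : ⟪v, v⟫ = 1) (hB : S.Bd v b) {x' y' z' : V} {α β γ : ℝ}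
    (hx : S.K v x' = (b ^ 2) • x') (hy : S.K v y' = (b ^ 2) • y') (hz : S.K v z' = (b ^ 2) • z') :
    S.R (α • v + x') (β • v + y') (γ • v + z') = (b ^ 2) •
      (⟪α • v + x', γ • v + z'⟫ • (β • v + y') - ⟪β • v + y', γ • v + z'⟫ • (α • v + x')) := by
  have o1 : ⟪x', v⟫ = 0 := orth_of_eig (by positivity) hx
  have o2 : ⟪y', v⟫ = 0 := orth_of_eig (by positivity) hy
  have o3 : ⟪z', v⟫ = 0 := orth_of_eig (by positivity) hz
  have o3' : ⟪v, z'⟫ = 0 := by rw [real_inner_comm, o3]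
  have e1 : S.R x' v v = -((b ^ 2) • x') := by rw [S.anti, ← K_apply, hx]
  have e2 : S.R x' v z' = (b ^ 2 * ⟪x', z'⟫) • v := by
    rw [S.anti, R_v_E hb hv hB hx hz, neg_smul, neg_neg]
  simp only [map_add, map_smul, LinearMap.add_apply, LinearMap.smul_apply, R_self,
    LinearMap.zero_apply, inner_add_left, inner_add_right, real_inner_smul_left,
    real_inner_smul_right, o1, o2, o3', hv, R_v_E hb hv hB hy hz, R_E_v hb hv hB hx hy,
    R_E_E hb hv hB hx hy hz, e1, e2]
  rw [← K_apply S v y', hy]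
  module

section Fin

variable [FiniteDimensional ℝ V]

theorem LP_eq (h : S.Nrm b) (hv : ‖v‖ = 1) (z : V) : LP S b v z = ⟪v, z⟫ • v + pr2 S b v z := by
  have hv1 := inner_self_one hv
  have hb := h.pos
  have hd := h.decomp hv z
  have hK : S.K v z = (b ^ 2 / 4) • pr1 S b v z + (b ^ 2) • pr2 S b v z := by
    conv_lhs => rw [hd]
    rw [map_add, map_add, map_smul, K_self, h.K_pr1 hv, h.K_pr2 hv, smul_zero, zero_add]
  unfold LP
  rw [hK, hv1]
  have h2 : (1 : ℝ) • z - ⟪v, z⟫ • v = pr1 S b v z + pr2 S b v z := by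
    have h3 : z - ⟪z, v⟫ • v = pr1 S b v z + pr2 S b v z := by
      rw [sub_eq_iff_eq_add]
      conv_lhs => rw [hd]
      abel
    rw [one_smul, real_inner_comm, h3]
  rw [h2]
  match_scalars
  · field_simp
    ring
  · field_simp
    ring
  · ring

theorem LP_idem (h : S.Nrm b) (hv : ‖v‖ = 1) (z : V) : LP S b v (LP S b v z) = LP S b v z := by
  have hv1 := inner_self_one hv
  rw [LP_eq h hv z, LP_add, LP_smul, LP_self hv1, LP_of_eig h.pos hv1 (h.K_pr2 hv z)]

/-- the curvature on a leaf -/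
theorem curv_leaf (h : S.Nrm b) (hv : ‖v‖ = 1) (hx : LP S b v x = x) (hy : LP S b v y = y)
    (hz : LP S b v z = z) : S.R x y z = (b ^ 2) • (⟪x, z⟫ • y - ⟪y, z⟫ • x) := by
  have hv1 := inner_self_one hv
  have key := R_leaf h.pos hv1 (h.bd v hv) (α := ⟪v, x⟫) (β := ⟪v, y⟫) (γ := ⟪v, z⟫)
    (h.K_pr2 hv x) (h.K_pr2 hv y) (h.K_pr2 hv z)
  rw [← LP_eq h hv x, ← LP_eq h hv y, ← LP_eq h hv z, hx, hy, hz] at key
  exact key

theorem fix_of_fix (h : S.Nrm b) (hv : ‖v‖ = 1) (hw : ‖w‖ = 1) (hwv : LP S b v w = w)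
    (hu : LP S b v u = u) : LP S b w u = u := by
  have hw1 := inner_self_one hw
  have hb := h.pos
  have h1 : S.K w u = (b ^ 2) • (u - ⟪w, u⟫ • w) := by
    rw [K_apply, curv_leaf h hv hwv hu hwv, hw1, one_smul, real_inner_comm]
  unfold LP
  rw [h1, hw1]
  match_scalars
  · field_simp
    ring
  · field_simp
    ring

/-- **the leaf is the same for all its unit vectors** -/
theorem LP_congr (h : S.Nrm b) (hv : ‖v‖ = 1) (hw : ‖w‖ = 1) (hwv : LP S b v w = w) (z : V) :
    LP S b w z = LP S b v z := by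
  have hv1 := inner_self_one hv
  have hvw : LP S b w v = v := fix_of_fix h hv hw hwv (LP_self hv1)
  have h1 : ∀ z, LP S b v (LP S b w z) = LP S b w z := fun z =>
    fix_of_fix h hw hv hvw (LP_idem h hw z)
  have h2 : ∀ z, LP S b w (LP S b v z) = LP S b v z := fun z =>
    fix_of_fix h hv hw hwv (LP_idem h hv z)
  refine ext_inner_right ℝ fun t => ?_
  rw [← h1 z, LP_symm, LP_symm, h2 t, ← LP_symm]

/-! ### projections as sums over orthonormal families -/

/-- a symmetric idempotent is a sum over an orthonormal family of fixed vectors -/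
theorem exists_family (P : V → V) (hadd : ∀ x y, P (x + y) = P x + P y)
    (hsm : ∀ (c : ℝ) x, P (c • x) = c • P x) (hsymm : ∀ x y, ⟪P x, y⟫ = ⟪x, P y⟫)
    (hid : ∀ x, P (P x) = P x) :
    ∃ (m : ℕ) (f : Fin m → V), (∀ j, ‖f j‖ = 1) ∧ (∀ j, P (f j) = f j) ∧
      ∀ z, P z = ∑ j, ⟪f j, z⟫ • f j := by
  let U : Submodule ℝ V :=
    { carrier := {x | P x = x}
      add_mem' := fun {x y} hx hy => by
        change P (x + y) = x + y
        rw [hadd, hx, hy]
      zero_mem' := by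
        change P 0 = 0
        have h := hsm 0 0
        simpa using h
      smul_mem' := fun c x hx => by
        change P (c • x) = c • x
        rw [hsm, hx] }
  let f := stdOrthonormalBasis ℝ U
  refine ⟨finrank ℝ U, fun j => (f j : V), fun j => ?_, fun j => (f j).2, fun z => ?_⟩
  · have h := f.orthonormal.1 j
    rw [Submodule.coe_norm] at h
    exact h
  · have hz : P z ∈ U := hid z
    have h1 := f.sum_repr' ⟨P z, hz⟩
    have h2 : ((∑ j, ⟪f j, (⟨P z, hz⟩ : U)⟫ • f j : U) : V) = P z := congrArg Subtype.val h1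
    rw [← h2, AddSubmonoidClass.coe_finsetSum]
    refine Finset.sum_congr rfl fun j _ => ?_
    rw [Submodule.coe_smul, Submodule.coe_inner]
    have h3 : P (f j : V) = f j := (f j).2
    congr 1
    change ⟪(f j : V), P z⟫ = ⟪(f j : V), z⟫
    rw [← hsymm, h3]

/-! ### matrices in an orthonormal basis -/

variable {ι : Type*} [Fintype ι] [DecidableEq ι] (e : OrthonormalBasis ι ℝ V)

/-- the components of the curvature -/
def co (S : ACT V) (i j k l : ι) : ℝ := ⟪S.R (e i) (e j) (e k), e l⟫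

/-- the curvature operator on matrices -/
def ro (S : ACT V) (k : ι → ι → ℝ) (p q : ι) : ℝ := ∑ a, ∑ c, co e S p a q c * k a c

/-- the leaf sum on matrices -/
def tm (S : ACT V) (b : ℝ) (k : ι → ι → ℝ) (p q : ι) : ℝ :=
  4 / (3 * b ^ 2) * (ro e S k p q + b ^ 2 * k p q -
    b ^ 2 / 4 * (if p = q then ∑ c, k c c else 0))

/-- the quadratic form of a matrix -/
def qf (k : ι → ι → ℝ) (v : V) : ℝ := ∑ p, ∑ q, ⟪e p, v⟫ * ⟪e q, v⟫ * k p q

theorem K_entry (v : V) (a c : ι) : ⟪S.K v (e a), e c⟫ =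
    ∑ p, ∑ q, ⟪e p, v⟫ * ⟪e q, v⟫ * co e S p a q c := by
  have hv := e.sum_repr' v
  rw [K_apply]
  conv_lhs => rw [← hv]
  simp only [map_sum, map_smul, LinearMap.sum_apply, LinearMap.smul_apply, sum_inner,
    real_inner_smul_left, co, Finset.smul_sum]
  rw [Finset.sum_comm]
  exact Finset.sum_congr rfl fun p _ => Finset.sum_congr rfl fun q _ => by ring

theorem qf_ro (k : ι → ι → ℝ) (v : V) :
    qf e (ro e S k) v = ∑ a, ∑ c, k a c * ⟪S.K v (e a), e c⟫ := by
  simp only [K_entry, qf, ro, Finset.mul_sum]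
  calc ∑ p, ∑ q, ∑ a, ∑ c, ⟪e p, v⟫ * ⟪e q, v⟫ * (co e S p a q c * k a c)
      = ∑ p, ∑ a, ∑ q, ∑ c, ⟪e p, v⟫ * ⟪e q, v⟫ * (co e S p a q c * k a c) :=
        Finset.sum_congr rfl fun p _ => Finset.sum_comm
    _ = ∑ a, ∑ p, ∑ q, ∑ c, ⟪e p, v⟫ * ⟪e q, v⟫ * (co e S p a q c * k a c) := Finset.sum_comm
    _ = ∑ a, ∑ p, ∑ c, ∑ q, ⟪e p, v⟫ * ⟪e q, v⟫ * (co e S p a q c * k a c) :=
        Finset.sum_congr rfl fun a _ => Finset.sum_congr rfl fun p _ => Finset.sum_comm
    _ = ∑ a, ∑ c, ∑ p, ∑ q, ⟪e p, v⟫ * ⟪e q, v⟫ * (co e S p a q c * k a c) :=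
        Finset.sum_congr rfl fun a _ => Finset.sum_comm
    _ = _ := Finset.sum_congr rfl fun a _ => Finset.sum_congr rfl fun c _ =>
        Finset.sum_congr rfl fun p _ => Finset.sum_congr rfl fun q _ => by ring

theorem qf_delta (t : ℝ) (v : V) : qf e (fun p q => if p = q then t else 0) v = ⟪v, v⟫ * t := by
  unfold qf
  simp only [mul_ite, mul_zero, Finset.sum_ite_eq, Finset.mem_univ, if_true]
  rw [← Finset.sum_mul]
  congr 1
  have h := e.sum_inner_mul_inner v v
  rw [← h]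
  exact Finset.sum_congr rfl fun i _ => by rw [real_inner_comm v (e i)]

theorem qf_tm (hb : 0 < b) (k : ι → ι → ℝ) (v : V) :
    qf e (tm e S b k) v = ∑ a, ∑ c, k a c * ⟪LP S b v (e a), e c⟫ := by
  have h1 : ∀ a c, ⟪LP S b v (e a), e c⟫ = 4 / (3 * b ^ 2) * ⟪S.K v (e a), e c⟫
      + (-(4 / (3 * b ^ 2) * (b ^ 2 / 4)) * ⟪v, v⟫ * (if a = c then 1 else 0)
      + (4 / (3 * b ^ 2) * b ^ 2) * (⟪e a, v⟫ * ⟪e c, v⟫)) := by
    intro a c
    have h0 : 4 / (3 * b ^ 2) * b ^ 2 = 4 / (3 * b ^ 2) * (b ^ 2 / 4) + 1 := by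
      field_simp
      ring
    unfold LP
    simp only [inner_add_left, inner_sub_left, real_inner_smul_left, e.inner_eq_ite]
    rw [real_inner_comm v (e a), real_inner_comm (e c) v, h0]
    ring
  have h2 : qf e (tm e S b k) v = 4 / (3 * b ^ 2) * (qf e (ro e S k) v + b ^ 2 * qf e k v
      - b ^ 2 / 4 * (⟪v, v⟫ * ∑ c, k c c)) := by
    rw [← qf_delta e (∑ c, k c c) v]
    simp only [qf, tm, Finset.mul_sum, ← Finset.sum_add_distrib, ← Finset.sum_sub_distrib]
    exact Finset.sum_congr rfl fun p _ => Finset.sum_congr rfl fun q _ => by ring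
  have h3 : ∑ a, ∑ c, k a c * (if a = c then (1 : ℝ) else 0) = ∑ c, k c c := by
    simp only [mul_ite, mul_one, mul_zero, Finset.sum_ite_eq, Finset.mem_univ, if_true]
  have h4 : ∑ a, ∑ c, k a c * (⟪e a, v⟫ * ⟪e c, v⟫) = qf e k v := by
    unfold qf
    exact Finset.sum_congr rfl fun p _ => Finset.sum_congr rfl fun q _ => by ring
  rw [h2, qf_ro, ← h3, ← h4]
  simp only [h1, Finset.mul_sum, ← Finset.sum_add_distrib, ← Finset.sum_sub_distrib]
  exact Finset.sum_congr rfl fun p _ => Finset.sum_congr rfl fun q _ => by ring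

theorem qf_family (k : ι → ι → ℝ) {m : ℕ} {f : Fin m → V}
    (hf : ∀ z, LP S b v z = ∑ j, ⟪f j, z⟫ • f j) :
    ∑ a, ∑ c, k a c * ⟪LP S b v (e a), e c⟫ = ∑ j, qf e k (f j) := by
  simp only [hf, sum_inner, real_inner_smul_left, qf, Finset.mul_sum]
  calc ∑ a, ∑ c, ∑ j, k a c * (⟪f j, e a⟫ * ⟪f j, e c⟫)
      = ∑ a, ∑ j, ∑ c, k a c * (⟪f j, e a⟫ * ⟪f j, e c⟫) :=
        Finset.sum_congr rfl fun a _ => Finset.sum_comm
    _ = ∑ j, ∑ a, ∑ c, k a c * (⟪f j, e a⟫ * ⟪f j, e c⟫) := Finset.sum_comm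
    _ = _ := Finset.sum_congr rfl fun j _ => Finset.sum_congr rfl fun a _ =>
        Finset.sum_congr rfl fun c _ => by
          rw [real_inner_comm (f j) (e a), real_inner_comm (f j) (e c)]
          ring

/-- the dimension of the leaf -/
def dimL (S : ACT V) (b : ℝ) (v : V) : ℝ :=
  4 / (3 * b ^ 2) * (∑ a, ⟪S.K v (e a), e a⟫ - b ^ 2 / 4 * (Fintype.card ι - 1)) + 1

theorem dimL_eq (hv : ‖v‖ = 1) : ∑ a, ⟪LP S b v (e a), e a⟫ = dimL e S b v := by
  have hv1 := inner_self_one hv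
  have h1 : ∀ a, ⟪LP S b v (e a), e a⟫ = 4 / (3 * b ^ 2) * ⟪S.K v (e a), e a⟫
      + (-(4 / (3 * b ^ 2) * (b ^ 2 / 4))
      + (4 / (3 * b ^ 2) * (b ^ 2 / 4) + 1) * (⟪v, e a⟫ * ⟪e a, v⟫)) := by
    intro a
    unfold LP
    simp only [inner_add_left, inner_sub_left, real_inner_smul_left, e.inner_eq_ite, if_true, hv1]
    rw [real_inner_comm v (e a)]
    ring
  simp only [h1, Finset.sum_add_distrib, ← Finset.mul_sum, e.sum_inner_mul_inner v v, hv1,
    Finset.sum_const, Finset.card_univ, nsmul_eq_mul, dimL]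
  ring

theorem dimL_family (hv : ‖v‖ = 1) {m : ℕ} {f : Fin m → V} (hf1 : ∀ j, ‖f j‖ = 1)
    (hf : ∀ z, LP S b v z = ∑ j, ⟪f j, z⟫ • f j) : dimL e S b v = m := by
  rw [← dimL_eq e hv]
  have h1 := qf_family e (fun p q => if p = q then (1 : ℝ) else 0) hf
  simp only [qf_delta, inner_self_one (hf1 _), ite_mul, one_mul, zero_mul, Finset.sum_ite_eq,
    Finset.mem_univ, if_true, Finset.sum_const, Finset.card_univ, Fintype.card_fin, nsmul_eq_mul,
    mul_one] at h1
  exact h1

/-- **the leaf sum of the leaf sum**, as quadratic forms -/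
theorem qf_tm_tm (h : S.Nrm b) (hv : ‖v‖ = 1) (k : ι → ι → ℝ) :
    qf e (tm e S b (tm e S b k)) v = dimL e S b v * qf e (tm e S b k) v := by
  obtain ⟨m, f, hf1, hfix, hf⟩ := exists_family (LP S b v) (LP_add v) (fun c x => LP_smul c v x)
    (LP_symm v) (LP_idem h hv)
  have hb := h.pos
  rw [qf_tm e hb, qf_family e _ hf, dimL_family e hv hf1 hf]
  have h1 : ∀ j, qf e (tm e S b k) (f j) = qf e (tm e S b k) v := by
    intro j
    rw [qf_tm e hb, qf_tm e hb]
    exact Finset.sum_congr rfl fun a _ => Finset.sum_congr rfl fun c _ => by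
      rw [LP_congr h hv (hf1 j) (hfix j)]
  simp only [h1, Finset.sum_const, Finset.card_univ, Fintype.card_fin, nsmul_eq_mul]

/-! ### polarisation -/

theorem qf_smul (k : ι → ι → ℝ) (c : ℝ) (v : V) : qf e k (c • v) = c ^ 2 * qf e k v := by
  simp only [qf, real_inner_smul_right, Finset.mul_sum]
  exact Finset.sum_congr rfl fun p _ => Finset.sum_congr rfl fun q _ => by ring

theorem qf_basis (k : ι → ι → ℝ) (p : ι) : qf e k (e p) = k p p := by
  unfold qf
  simp only [e.inner_eq_ite, ite_mul, mul_ite, one_mul, mul_one, zero_mul, mul_zero,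
    Finset.sum_ite_eq', Finset.mem_univ, if_true]

theorem qf_add (k : ι → ι → ℝ) (v w : V) : qf e k (v + w) = qf e k v + qf e k w +
    ∑ p, ∑ q, (⟪e p, v⟫ * ⟪e q, w⟫ + ⟪e p, w⟫ * ⟪e q, v⟫) * k p q := by
  simp only [qf, inner_add_right, ← Finset.sum_add_distrib]
  exact Finset.sum_congr rfl fun p _ => Finset.sum_congr rfl fun q _ => by ring

theorem qf_basis_add (k : ι → ι → ℝ) (p q : ι) :
    qf e k (e p + e q) = k p p + k q q + (k p q + k q p) := by
  rw [qf_add, qf_basis, qf_basis]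
  congr 1
  simp only [e.inner_eq_ite, ite_mul, one_mul, zero_mul, add_mul, Finset.sum_add_distrib]
  rw [Finset.sum_eq_single p, Finset.sum_eq_single q]
  · simp
  · intro r _ hr; simp [hr]
  · intro hr; exact absurd (Finset.mem_univ _) hr
  · intro r _ hr; simp [hr]
  · intro hr; exact absurd (Finset.mem_univ _) hr

/-- symmetric matrices with the same quadratic form on the unit sphere are equal -/
theorem eq_of_qf {M N : ι → ι → ℝ} (hM : ∀ p q, M p q = M q p) (hN : ∀ p q, N p q = N q p)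
    (h : ∀ v : V, ‖v‖ = 1 → qf e M v = qf e N v) (p q : ι) : M p q = N p q := by
  have h1 : ∀ v : V, qf e M v = qf e N v := by
    intro v
    by_cases hv : v = 0
    · subst hv
      simp [qf]
    · have h2 : v = ‖v‖ • (‖v‖⁻¹ • v) := by
        rw [smul_smul, mul_inv_cancel₀ (norm_ne_zero_iff.2 hv), one_smul]
      have h3 : ‖(‖v‖⁻¹ • v)‖ = 1 := by
        rw [norm_smul, norm_inv, norm_norm, inv_mul_cancel₀ (norm_ne_zero_iff.2 hv)]
      rw [h2, qf_smul e M ‖v‖, qf_smul e N ‖v‖, h _ h3]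
  have e1 := h1 (e p)
  have e2 := h1 (e q)
  have e3 := h1 (e p + e q)
  rw [qf_basis, qf_basis] at e1 e2
  rw [qf_basis_add, qf_basis_add, e1, e2, ← hM p q, ← hN p q] at e3
  linarith

theorem co_pair (p a q c : ι) : co e S p a q c = co e S q c p a := S.pair _ _ _ _

theorem co_anti (p a q c : ι) : co e S p a q c = -co e S a p q c := by
  unfold co
  rw [S.anti, inner_neg_left]

theorem co_skew (p a q c : ι) : co e S p a q c = -co e S p a c q := by
  unfold co
  rw [S.skew, real_inner_comm]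

theorem ro_symm {k : ι → ι → ℝ} (hk : ∀ p q, k p q = k q p) (p q : ι) :
    ro e S k p q = ro e S k q p := by
  unfold ro
  rw [Finset.sum_comm]
  exact Finset.sum_congr rfl fun a _ => Finset.sum_congr rfl fun c _ => by
    rw [co_pair, hk c a]

theorem tm_symm {k : ι → ι → ℝ} (hk : ∀ p q, k p q = k q p) (p q : ι) :
    tm e S b k p q = tm e S b k q p := by
  unfold tm
  rw [ro_symm e hk p q, hk p q]
  simp only [eq_comm (a := p) (b := q)]

/-- the dimension of the leaf, from the Ricci tensor -/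
theorem dimL_einstein {c₀ : ℝ} (hE : ∀ p q, ∑ a, co e S p a q a = if p = q then c₀ else 0)
    (hv : ‖v‖ = 1) : dimL e S b v =
      4 / (3 * b ^ 2) * (c₀ - b ^ 2 / 4 * (Fintype.card ι - 1)) + 1 := by
  have hv1 := inner_self_one hv
  have h1 : ∑ a, ⟪S.K v (e a), e a⟫ = c₀ := by
    simp only [K_entry]
    calc ∑ a, ∑ p, ∑ q, ⟪e p, v⟫ * ⟪e q, v⟫ * co e S p a q a
        = ∑ p, ∑ a, ∑ q, ⟪e p, v⟫ * ⟪e q, v⟫ * co e S p a q a := Finset.sum_comm
      _ = ∑ p, ∑ q, ∑ a, ⟪e p, v⟫ * ⟪e q, v⟫ * co e S p a q a :=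
          Finset.sum_congr rfl fun p _ => Finset.sum_comm
      _ = qf e (fun p q => if p = q then c₀ else 0) v := by
          unfold qf
          refine Finset.sum_congr rfl fun p _ => Finset.sum_congr rfl fun q _ => ?_
          rw [← Finset.mul_sum, hE]
      _ = c₀ := by rw [qf_delta, hv1, one_mul]
  unfold dimL
  rw [h1]

/-- **the leaf sum of the leaf sum** -/
theorem tm_tm (h : S.Nrm b) {c₀ : ℝ}
    (hE : ∀ p q, ∑ a, co e S p a q a = if p = q then c₀ else 0) {k : ι → ι → ℝ}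
    (hk : ∀ p q, k p q = k q p) (p q : ι) : tm e S b (tm e S b k) p q =
      (4 / (3 * b ^ 2) * (c₀ - b ^ 2 / 4 * (Fintype.card ι - 1)) + 1) * tm e S b k p q := by
  refine eq_of_qf e (M := tm e S b (tm e S b k)) (N := fun p q =>
    (4 / (3 * b ^ 2) * (c₀ - b ^ 2 / 4 * (Fintype.card ι - 1)) + 1) * tm e S b k p q)
    (tm_symm e (tm_symm e hk)) (fun p q => by rw [tm_symm e hk]) (fun v hv => ?_) p q
  rw [qf_tm_tm e h hv, dimL_einstein e hE hv]
  simp only [qf, Finset.mul_sum]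
  exact Finset.sum_congr rfl fun p _ => Finset.sum_congr rfl fun q _ => by ring

/-- the dimension of the leaf is an integer between `2` and `n` -/
theorem exists_dimL (h : S.Nrm b) (hv : ‖v‖ = 1) :
    ∃ m : ℕ, 2 ≤ m ∧ m ≤ Fintype.card ι ∧ dimL e S b v = m := by
  obtain ⟨m, f, hf1, hfix, hf⟩ := exists_family (LP S b v) (LP_add v) (fun c x => LP_smul c v x)
    (LP_symm v) (LP_idem h hv)
  have hv1 := inner_self_one hv
  refine ⟨m, ?_, ?_, dimL_family e hv hf1 hf⟩
  · by_contra hm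
    obtain ⟨y, hy0, hy⟩ := h.att v hv
    have h1 : LP S b v v = v := LP_self hv1
    have h2 : LP S b v y = y := LP_of_eig h.pos hv1 hy
    have h3 : ⟪y, v⟫ = 0 := orth_of_eig (pow_ne_zero 2 h.pos.ne') hy
    have hm' : m = 0 ∨ m = 1 := by omega
    rcases hm' with rfl | rfl
    · rw [hf, Fin.sum_univ_zero] at h1
      rw [← h1, inner_zero_left] at hv1
      exact zero_ne_one hv1
    · rw [hf, Fin.sum_univ_one] at h1 h2
      have h4 : ⟪f 0, v⟫ ≠ 0 := by
        intro h5
        rw [h5, zero_smul] at h1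
        rw [← h1, inner_zero_left] at hv1
        exact zero_ne_one hv1
      have h5 : ⟪f 0, y⟫ ≠ 0 := by
        intro h5
        rw [h5, zero_smul] at h2
        exact hy0 h2.symm
      rw [← h1, ← h2, real_inner_smul_left, real_inner_smul_right, inner_self_one (hf1 0),
        mul_one] at h3
      exact (mul_ne_zero h5 h4) h3
  · have h1 := dimL_family e hv hf1 hf
    rw [← dimL_eq e hv] at h1
    have h2 : ∀ a, ⟪LP S b v (e a), e a⟫ ≤ 1 := by
      intro a
      have h3 : ‖LP S b v (e a)‖ ^ 2 = ⟪LP S b v (e a), e a⟫ := by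
        rw [← real_inner_self_eq_norm_sq, LP_symm, LP_idem h hv, real_inner_comm]
      have h4 := real_inner_le_norm (LP S b v (e a)) (e a)
      rw [e.norm_eq_one, mul_one] at h4
      nlinarith [norm_nonneg (LP S b v (e a))]
    have h3 : (m : ℝ) ≤ Fintype.card ι := by
      rw [← h1]
      calc ∑ a, ⟪LP S b v (e a), e a⟫ ≤ ∑ _a : ι, (1 : ℝ) := Finset.sum_le_sum fun a _ => h2 a
        _ = Fintype.card ι := by simp
    exact_mod_cast h3

end Fin

end Vale.Agent.P207.H469
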