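import Vale.Agent.P207.H469.Ball
import Vale.Agent.P207.H242.T2
import Vale.Agent.P207.N3.H469.Calc

/-!
# P207, line N4, row T2: the core, with the Harnack step

`OrbD`: the potentials `δ_j` of a leaf on the discs along one orbit, in coordinates in which the
flow is linear; the error of one step is quadratic in the size of `dδ`, in `C^0` only.
`t2core`: `‖dδ_j‖ ≤ H ‖dδ_j 0‖` on the disc and `‖D^k δ_j‖ ≤ C ‖dδ_j 0‖^κ` for `k ≥ 2`,
`κ < min 2 (2a/b)`.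
-/

set_option maxSynthPendingDepth 3

noncomputable section

open Set Filter Topology Metric
open scoped ContDiff

namespace Vale.Agent.P207.H469.T2

variable {E : Type} [NormedAddCommGroup E] [NormedSpace ℝ E]

/-! ### sums -/

/-- the sum `∑_{i<n} q^(n-1-i) a_i` -/
def Sr (q : ℝ) (a : ℕ → ℝ) : ℕ → ℝ
  | 0 => 0
  | n + 1 => q * Sr q a n + a n

theorem Sr_le {q m : ℝ} {a : ℕ → ℝ} (hq : 0 ≤ q) (hm : 0 ≤ m) (hqm : q * m < 1) (n : ℕ) :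
    ∀ {Q : ℝ}, 0 ≤ Q → (∀ i < n, a i ≤ Q * m ^ (n - i)) → Sr q a n ≤ Q * m / (1 - q * m) := by
  have h1 : 0 < 1 - q * m := by linarith
  induction n with
  | zero =>
    intro Q hQ _
    change (0 : ℝ) ≤ _
    positivity
  | succ n ih =>
    intro Q hQ ha
    have h2 := ih (Q := Q * m) (by positivity) fun i hi => by
      have h3 := ha i (by omega)
      have h4 : n + 1 - i = (n - i) + 1 := by omega
      rw [h4, pow_succ] at h3
      linarith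
    have h5 := ha n (by omega)
    rw [Nat.add_sub_cancel_left, pow_one] at h5
    change q * Sr q a n + a n ≤ _
    calc q * Sr q a n + a n ≤ q * (Q * m * m / (1 - q * m)) + Q * m := by gcongr
      _ = Q * m / (1 - q * m) := by field_simp; ring

/-! ### one step -/

/-- one step of the recursion: the error is of size `x ^ κ` in `C^i`. -/
theorem err_iter {R lam κ C₀ : ℝ} (hR : 0 < R) (h0 : 0 ≤ lam) (h1 : lam < 1) (hκ2 : κ < 2)
    (hC₀ : 0 < C₀) (M : ℕ → ℝ) {i : ℕ} (hi : 1 ≤ i) :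
    ∃ K : ℝ, 0 ≤ K ∧ ∀ (d d' : E → ℝ) (L : E →L[ℝ] E) (c x : ℝ),
      ContDiffOn ℝ ∞ d (ball 0 R) → ContDiffOn ℝ ∞ d' (ball 0 R) →
      (∀ k, ∀ u ∈ ball (0 : E) R, ‖iteratedFDeriv ℝ k d u‖ ≤ M k) →
      (∀ k, ∀ u ∈ ball (0 : E) R, ‖iteratedFDeriv ℝ k d' u‖ ≤ M k) →
      ‖L‖ ≤ lam → 0 < x → C₀ * x ^ 2 ≤ 1 →
      (∀ u ∈ ball (0 : E) R, |d' u - d (L u) - c| ≤ C₀ * x ^ 2) →
      ∀ u ∈ ball (0 : E) R,
        ‖iteratedFDeriv ℝ i d' u‖ ≤ lam ^ i * ‖iteratedFDeriv ℝ i d (L u)‖ + K * x ^ κ := by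
  obtain ⟨C, hC, H⟩ := exists_interp_full.{0} hR i (ε := 1 - κ / 2) (by linarith)
    (fun k => |M k| + |M k| + 1)
  refine ⟨C * C₀ ^ (κ / 2), by positivity, ?_⟩
  intro d d' L c x hd hd' hM hM' hL hx hx1 he u hu
  have hmaps : ∀ v ∈ ball (0 : E) R, L v ∈ ball (0 : E) R := by
    intro v hv
    rw [mem_ball_zero_iff] at hv ⊢
    have h2 := L.le_opNorm v
    have h3 : ‖L‖ * ‖v‖ ≤ 1 * ‖v‖ := mul_le_mul_of_nonneg_right (by linarith) (norm_nonneg _)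
    linarith
  have hdL : ContDiffOn ℝ ∞ (fun v => d (L v)) (ball (0 : E) R) :=
    hd.comp L.contDiff.contDiffOn hmaps
  set g : E → ℝ := fun v => d' v - d (L v) with hg
  have hgs : ContDiffOn ℝ ∞ g (ball (0 : E) R) := hd'.sub hdL
  set e : E → ℝ := fun v => g v - c with hedef
  have hes : ContDiffOn ℝ ∞ e (ball (0 : E) R) := hgs.sub contDiffOn_const
  have hsub : ∀ (k : ℕ) (v : E), v ∈ ball (0 : E) R → iteratedFDeriv ℝ k g v =
      iteratedFDeriv ℝ k d' v - iteratedFDeriv ℝ k (fun v => d (L v)) v := by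
    intro k v hv
    exact N3.H469.iteratedFDeriv_sub_on isOpen_ball (contDiffOn_infty.1 hd' k)
      (contDiffOn_infty.1 hdL k) hv
  have hcomp : ∀ (k : ℕ) (v : E), v ∈ ball (0 : E) R →
      ‖iteratedFDeriv ℝ k (fun v => d (L v)) v‖ ≤ ‖iteratedFDeriv ℝ k d (L v)‖ * lam ^ k := by
    intro k v hv
    refine (H242.T2.norm_iter_comp_right_le isOpen_ball hd L (hmaps v hv) k).trans ?_
    gcongr
  have hei : ∀ (k : ℕ), 1 ≤ k → ∀ v ∈ ball (0 : E) R,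
      ‖iteratedFDeriv ℝ k e v‖ = ‖iteratedFDeriv ℝ k g v‖ := fun k hk v _ =>
    N3.H469.norm_iter_sub_const g c hk v
  have hlk : ∀ k : ℕ, lam ^ k ≤ 1 := fun k => pow_le_one₀ h0 h1.le
  have hb : ∀ k, ∀ v ∈ ball (0 : E) R, ‖iteratedFDeriv ℝ k e v‖ ≤ |M k| + |M k| + 1 := by
    intro k v hv
    rcases Nat.eq_zero_or_pos k with rfl | hk
    · rw [norm_iteratedFDeriv_zero, Real.norm_eq_abs]
      have := he v hv
      have h2 := abs_nonneg (M 0)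
      exact this.trans (by linarith)
    · rw [hei k hk v hv, hsub k v hv]
      refine (norm_sub_le _ _).trans ?_
      have h2 := (hM' k v hv).trans (le_abs_self _)
      have h3 := (hcomp k v hv).trans (mul_le_mul ((hM k _ (hmaps v hv)).trans (le_abs_self _))
        (hlk k) (by positivity) (abs_nonneg _))
      linarith
  have h4 := H E ℝ e hes hb (C₀ * x ^ 2) (by positivity) hx1
    (fun v hv => by rw [Real.norm_eq_abs]; exact he v hv) u hu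
  rw [hei i hi u hu, hsub i u hu] at h4
  have h5 : (C₀ * x ^ 2) ^ (1 - (1 - κ / 2)) = C₀ ^ (κ / 2) * x ^ κ := by
    rw [sub_sub_cancel, Real.mul_rpow hC₀.le (by positivity), ← Real.rpow_natCast x 2,
      ← Real.rpow_mul hx.le]
    congr 2
    push_cast
    ring
  rw [h5, ← mul_assoc] at h4
  have h6 := hcomp i u hu
  have h7 : iteratedFDeriv ℝ i d' u = iteratedFDeriv ℝ i (fun v => d (L v)) u +
      (iteratedFDeriv ℝ i d' u - iteratedFDeriv ℝ i (fun v => d (L v)) u) := by abel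
  rw [h7]
  refine (norm_add_le _ _).trans ?_
  rw [mul_comm (lam ^ i)]
  exact add_le_add h6 h4

/-! ### the orbit -/

/-- the potentials of a leaf on the discs along one orbit -/
structure OrbD (R lam mu C₀ C₁ s₀ c₁ : ℝ) (M : ℕ → ℝ) (δ : ℕ → E → ℝ) (L : ℕ → E →L[ℝ] E) :
    Prop where
  smooth : ∀ j, ContDiffOn ℝ ∞ (δ j) (ball 0 R)
  bound : ∀ j k, ∀ u ∈ ball (0 : E) R, ‖iteratedFDeriv ℝ k (δ j) u‖ ≤ M k
  L_le : ∀ j, ‖L j‖ ≤ lam
  err : ∀ j (s s' : ℝ), (∀ u ∈ ball (0 : E) R, ‖fderiv ℝ (δ j) u‖ ≤ s) →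
    (∀ u ∈ ball (0 : E) R, ‖fderiv ℝ (δ (j + 1)) u‖ ≤ s') →
    ∃ c, ∀ u ∈ ball (0 : E) R, |δ (j + 1) u - δ j (L j u) - c| ≤ C₀ * (s ^ 2 + s' ^ 2)
  small : ∀ j, ∀ u ∈ ball (0 : E) R, ‖fderiv ℝ (δ j) u‖ ≤ s₀
  rate : ∀ i j, i ≤ j → ‖fderiv ℝ (δ i) 0‖ ≤ C₁ * mu ^ (j - i) * ‖fderiv ℝ (δ j) 0‖
  start : c₁ ≤ ‖fderiv ℝ (δ 0) 0‖

/-- the size of the differential on the disc -/
def sig (R : ℝ) (f : E → ℝ) : ℝ := sSup ((fun u => ‖fderiv ℝ f u‖) '' ball (0 : E) R)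

theorem le_sig {R s : ℝ} {f : E → ℝ} (h : ∀ u ∈ ball (0 : E) R, ‖fderiv ℝ f u‖ ≤ s) :
    ∀ u ∈ ball (0 : E) R, ‖fderiv ℝ f u‖ ≤ sig R f := fun u hu =>
  le_csSup ⟨s, by rintro _ ⟨v, hv, rfl⟩; exact h v hv⟩ ⟨u, hu, rfl⟩

theorem sig_le {R s : ℝ} (hR : 0 < R) {f : E → ℝ} (h : ∀ u ∈ ball (0 : E) R, ‖fderiv ℝ f u‖ ≤ s) :
    sig R f ≤ s :=
  csSup_le ⟨_, ⟨0, mem_ball_self hR, rfl⟩⟩ (by rintro _ ⟨v, hv, rfl⟩; exact h v hv)

section orbit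

variable {R lam mu C₀ C₁ s₀ c₁ κ : ℝ} {M : ℕ → ℝ} {δ : ℕ → E → ℝ} {L : ℕ → E →L[ℝ] E}

theorem OrbD.t_pos (h : OrbD R lam mu C₀ C₁ s₀ c₁ M δ L) (hc : 0 < c₁) (j : ℕ) :
    0 < ‖fderiv ℝ (δ j) 0‖ := by
  have h1 := h.rate 0 j (Nat.zero_le j)
  have h2 := h.start
  rcases (norm_nonneg (fderiv ℝ (δ j) 0)).eq_or_lt with h3 | h3
  · rw [← h3, mul_zero] at h1
    linarith
  · exact h3

theorem OrbD.t_le_sig (h : OrbD R lam mu C₀ C₁ s₀ c₁ M δ L) (hR : 0 < R) (j : ℕ) :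
    ‖fderiv ℝ (δ j) 0‖ ≤ sig R (δ j) := le_sig (h.small j) 0 (mem_ball_self hR)

theorem OrbD.sig_small (h : OrbD R lam mu C₀ C₁ s₀ c₁ M δ L) (hR : 0 < R) (j : ℕ) :
    sig R (δ j) ≤ s₀ := sig_le hR (h.small j)

end orbit

/-- **The core of T2**, with the Harnack step. -/
theorem t2core {R lam mu C₀ C₁ κ : ℝ} (hR : 0 < R) (h0 : 0 ≤ lam) (h1 : lam < 1) (hmu : 1 ≤ mu)
    (hκ1 : 1 < κ) (hκ2 : κ < 2) (hlm : lam ^ 2 * mu ^ κ < 1) (hC₀ : 0 < C₀) (hC₁ : 1 ≤ C₁)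
    (M : ℕ → ℝ) : ∃ s₀ > 0, ∀ c₁ > 0, ∃ H : ℝ, 0 < H ∧ ∀ k ≥ 2, ∃ C : ℝ, 0 ≤ C ∧
      ∀ (δ : ℕ → E → ℝ) (L : ℕ → E →L[ℝ] E), OrbD R lam mu C₀ C₁ s₀ c₁ M δ L →
      ∀ j, ∀ u ∈ ball (0 : E) R, ‖fderiv ℝ (δ j) u‖ ≤ H * ‖fderiv ℝ (δ j) 0‖ ∧
        ‖iteratedFDeriv ℝ k (δ j) u‖ ≤ C * ‖fderiv ℝ (δ j) 0‖ ^ κ := by
  have hmu0 : 0 < mu := by linarith
  have hκ0 : 0 < κ - 1 := by linarith
  have hmk : mu ≤ mu ^ κ := by
    calc mu = mu ^ (1 : ℝ) := (Real.rpow_one mu).symm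
      _ ≤ mu ^ κ := Real.rpow_le_rpow_of_exponent_le hmu hκ1.le
  have hlm1 : lam ^ 2 * mu < 1 := lt_of_le_of_lt (by gcongr) hlm
  have hd1 : 0 < 1 - lam ^ 2 * mu := by linarith
  have hdk : 0 < 1 - lam ^ 2 * mu ^ κ := by linarith
  choose! K hK0 hK using fun (i : ℕ) (hi : 1 ≤ i) =>
    err_iter (E := E) hR h0 h1 hκ2 hC₀ M hi
  -- the choice of `s₀`
  have hlim : Tendsto (fun s : ℝ => s ^ (κ - 1)) (𝓝 0) (𝓝 0) := by
    have := (Real.continuousAt_rpow_const 0 (κ - 1) (Or.inr hκ0.le)).tendsto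
    rwa [Real.zero_rpow hκ0.ne'] at this
  have hlim2 : Tendsto (fun s : ℝ => (2 * s) ^ (κ - 1)) (𝓝 0) (𝓝 0) := by
    have h2 : Tendsto (fun s : ℝ => 2 * s) (𝓝 0) (𝓝 0) := by
      have := (tendsto_id (α := ℝ) (x := 𝓝 0)).const_mul 2
      simpa using this
    exact hlim.comp h2
  have hA : ∀ᶠ s : ℝ in 𝓝 0, K 1 * (2 * s) ^ (κ - 1) < (1 - lam) / 2 := by
    have h2 := hlim2.const_mul (K 1)
    rw [mul_zero] at h2
    exact h2.eventually (gt_mem_nhds (by linarith))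
  have hB : ∀ᶠ s : ℝ in 𝓝 0,
      R * (K 2 * 2 ^ κ) * (C₁ * mu / (1 - lam ^ 2 * mu)) * s ^ (κ - 1) < 1 / 2 := by
    have h2 := hlim.const_mul (R * (K 2 * 2 ^ κ) * (C₁ * mu / (1 - lam ^ 2 * mu)))
    rw [mul_zero] at h2
    exact h2.eventually (gt_mem_nhds (by norm_num))
  have hCc : ∀ᶠ s : ℝ in 𝓝 0, C₀ * (2 * s) ^ 2 < 1 := by
    have h2 : ContinuousAt (fun s : ℝ => C₀ * (2 * s) ^ 2) 0 := by fun_prop
    have h3 := h2.tendsto
    simp only [mul_zero, ne_eq, OfNat.ofNat_ne_zero, not_false_eq_true, zero_pow] at h3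
    exact h3.eventually (gt_mem_nhds one_pos)
  obtain ⟨s₀, hs0, ⟨hsA, hsB, hsC⟩⟩ : ∃ s : ℝ, 0 < s ∧ (K 1 * (2 * s) ^ (κ - 1) < (1 - lam) / 2 ∧
      R * (K 2 * 2 ^ κ) * (C₁ * mu / (1 - lam ^ 2 * mu)) * s ^ (κ - 1) < 1 / 2 ∧
      C₀ * (2 * s) ^ 2 < 1) := by
    have h2 : ∀ᶠ s : ℝ in 𝓝[>] 0, 0 < s := eventually_mem_nhdsWithin
    have h3 : ∀ᶠ s : ℝ in 𝓝[>] 0, (K 1 * (2 * s) ^ (κ - 1) < (1 - lam) / 2 ∧
      R * (K 2 * 2 ^ κ) * (C₁ * mu / (1 - lam ^ 2 * mu)) * s ^ (κ - 1) < 1 / 2 ∧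
      C₀ * (2 * s) ^ 2 < 1) := nhdsWithin_le_nhds (hA.and (hB.and hCc))
    exact (h2.and h3).exists
  refine ⟨s₀, hs0, fun c₁ hc₁ => ?_⟩
  set H : ℝ := 2 * (1 + R * |M 2| * C₁ / c₁) with hH
  have hH0 : 0 < H := by positivity
  refine ⟨H, hH0, fun k hk => ?_⟩
  refine ⟨|M k| * (C₁ / c₁) ^ κ + K k * 2 ^ κ * (H ^ κ * C₁ ^ κ * mu ^ κ / (1 - lam ^ 2 * mu ^ κ)),
    by have := hK0 k (by omega); positivity, ?_⟩
  intro δ L h
  set t : ℕ → ℝ := fun j => ‖fderiv ℝ (δ j) 0‖ with ht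
  set σ : ℕ → ℝ := fun j => sig R (δ j) with hσ
  have htp : ∀ j, 0 < t j := h.t_pos hc₁
  have htσ : ∀ j, t j ≤ σ j := h.t_le_sig hR
  have hσp : ∀ j, 0 < σ j := fun j => (htp j).trans_le (htσ j)
  have hσs : ∀ j, σ j ≤ s₀ := h.sig_small hR
  have hσb : ∀ j, ∀ u ∈ ball (0 : E) R, ‖fderiv ℝ (δ j) u‖ ≤ σ j := fun j => le_sig (h.small j)
  -- one step, all orders
  have hstep : ∀ i, 1 ≤ i → ∀ j, ∀ u ∈ ball (0 : E) R, ‖iteratedFDeriv ℝ i (δ (j + 1)) u‖ ≤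
      lam ^ i * ‖iteratedFDeriv ℝ i (δ j) (L j u)‖ + K i * (σ j + σ (j + 1)) ^ κ := by
    intro i hi j
    obtain ⟨c, hc⟩ := h.err j (σ j) (σ (j + 1)) (hσb j) (hσb (j + 1))
    have hx : 0 < σ j + σ (j + 1) := add_pos (hσp j) (hσp (j + 1))
    refine hK i hi (δ j) (δ (j + 1)) (L j) c (σ j + σ (j + 1)) (h.smooth j) (h.smooth (j + 1))
      (h.bound j) (h.bound (j + 1)) (h.L_le j) hx ?_ fun u hu => (hc u hu).trans ?_
    · refine le_trans ?_ hsC.le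
      have h2 : σ j + σ (j + 1) ≤ 2 * s₀ := by linarith [hσs j, hσs (j + 1)]
      gcongr
    · have h2 := mul_pos (hσp j) (hσp (j + 1))
      refine mul_le_mul_of_nonneg_left ?_ hC₀.le
      nlinarith
  have hmaps : ∀ j, ∀ v ∈ ball (0 : E) R, L j v ∈ ball (0 : E) R := by
    intro j v hv
    rw [mem_ball_zero_iff] at hv ⊢
    have h2 := (L j).le_opNorm v
    have h3 : ‖L j‖ * ‖v‖ ≤ 1 * ‖v‖ :=
      mul_le_mul_of_nonneg_right (by linarith [h.L_le j]) (norm_nonneg _)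
    linarith
  -- the sizes decrease
  have hdec : ∀ j, σ (j + 1) ≤ σ j := by
    intro j
    have hx : 0 < σ j + σ (j + 1) := add_pos (hσp j) (hσp (j + 1))
    have h2 : σ (j + 1) ≤ lam * σ j + K 1 * (σ j + σ (j + 1)) ^ κ := by
      refine sig_le hR fun u hu => ?_
      have h3 := hstep 1 le_rfl j u hu
      rw [norm_iteratedFDeriv_one, norm_iteratedFDeriv_one, pow_one] at h3
      have h4 := hσb j (L j u) (hmaps j u hu)
      have h5 := mul_le_mul_of_nonneg_left h4 h0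
      linarith
    have h3 : (σ j + σ (j + 1)) ^ κ = (σ j + σ (j + 1)) ^ (κ - 1) * (σ j + σ (j + 1)) := by
      rw [Real.rpow_sub_one hx.ne', div_mul_cancel₀ _ hx.ne']
    have h4 : (σ j + σ (j + 1)) ^ (κ - 1) ≤ (2 * s₀) ^ (κ - 1) :=
      Real.rpow_le_rpow hx.le (by linarith [hσs j, hσs (j + 1)]) hκ0.le
    have h5 : K 1 * (σ j + σ (j + 1)) ^ κ ≤ (1 - lam) / 2 * (σ j + σ (j + 1)) := by
      rw [h3, ← mul_assoc]
      refine mul_le_mul_of_nonneg_right ?_ hx.le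
      exact (mul_le_mul_of_nonneg_left h4 (hK0 1 le_rfl)).trans hsA.le
    have h6 : (1 + lam) / 2 * σ (j + 1) ≤ (1 + lam) / 2 * σ j := by nlinarith
    exact le_of_mul_le_mul_left h6 (by linarith)
  have hstep' : ∀ i, 1 ≤ i → ∀ j, ∀ u ∈ ball (0 : E) R, ‖iteratedFDeriv ℝ i (δ (j + 1)) u‖ ≤
      lam ^ i * ‖iteratedFDeriv ℝ i (δ j) (L j u)‖ + K i * 2 ^ κ * σ j ^ κ := by
    intro i hi j u hu
    refine (hstep i hi j u hu).trans ?_
    have h2 : (σ j + σ (j + 1)) ^ κ ≤ (2 * σ j) ^ κ :=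
      Real.rpow_le_rpow (add_pos (hσp j) (hσp (j + 1))).le (by linarith [hdec j]) (by linarith)
    rw [Real.mul_rpow (by norm_num) (hσp j).le] at h2
    have h3 := mul_le_mul_of_nonneg_left h2 (hK0 i hi)
    linarith
  -- higher derivatives
  have hhigh : ∀ i, 2 ≤ i → ∀ n, ∀ u ∈ ball (0 : E) R, ‖iteratedFDeriv ℝ i (δ n) u‖ ≤
      (lam ^ 2) ^ n * |M i| + K i * 2 ^ κ * Sr (lam ^ 2) (fun j => σ j ^ κ) n := by
    intro i hi n
    induction n with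
    | zero =>
      intro u hu
      change _ ≤ (lam ^ 2) ^ 0 * |M i| + K i * 2 ^ κ * 0
      rw [pow_zero, one_mul, mul_zero, add_zero]
      exact (h.bound 0 i u hu).trans (le_abs_self _)
    | succ n ih =>
      intro u hu
      refine (hstep' i (by omega) n u hu).trans ?_
      have h2 := ih (L n u) (hmaps n u hu)
      have h3 : lam ^ i ≤ lam ^ 2 := pow_le_pow_of_le_one h0 h1.le hi
      change _ ≤ (lam ^ 2) ^ (n + 1) * |M i| +
        K i * 2 ^ κ * (lam ^ 2 * Sr (lam ^ 2) (fun j => σ j ^ κ) n + σ n ^ κ)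
      have h4 : lam ^ i * ‖iteratedFDeriv ℝ i (δ n) (L n u)‖ ≤ lam ^ 2 *
          ((lam ^ 2) ^ n * |M i| + K i * 2 ^ κ * Sr (lam ^ 2) (fun j => σ j ^ κ) n) :=
        mul_le_mul h3 h2 (norm_nonneg _) (by positivity)
      rw [pow_succ]
      nlinarith
  -- the rates
  have hrate : ∀ i j, i ≤ j → t i ≤ C₁ * mu ^ (j - i) * t j := h.rate
  have hq0 : (0 : ℝ) ≤ lam ^ 2 := by positivity
  have hgeo : ∀ n, (lam ^ 2) ^ n * c₁ ≤ C₁ * t n := by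
    intro n
    have h2 := hrate 0 n (Nat.zero_le n)
    rw [Nat.sub_zero] at h2
    have h3 : c₁ ≤ C₁ * mu ^ n * t n := h.start.trans h2
    have h4 : (lam ^ 2 * mu) ^ n ≤ 1 := pow_le_one₀ (by positivity) hlm1.le
    calc (lam ^ 2) ^ n * c₁ ≤ (lam ^ 2) ^ n * (C₁ * mu ^ n * t n) := by gcongr
      _ = (lam ^ 2 * mu) ^ n * (C₁ * t n) := by rw [mul_pow]; ring
      _ ≤ 1 * (C₁ * t n) := mul_le_mul_of_nonneg_right h4
          (mul_nonneg (by linarith) (htp n).le)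
      _ = C₁ * t n := one_mul _
  -- the Harnack step
  have hfin : ∀ n, ∀ B : ℝ, (∀ u ∈ ball (0 : E) R, ‖iteratedFDeriv ℝ 2 (δ n) u‖ ≤ B) →
      σ n ≤ t n + R * B := by
    intro n B hB
    have hB0 : 0 ≤ B := (norm_nonneg _).trans (hB 0 (mem_ball_self hR))
    refine sig_le hR fun u hu => ?_
    have hfd : ∀ v ∈ ball (0 : E) R, DifferentiableAt ℝ (fderiv ℝ (δ n)) v := by
      intro v hv
      have h2 : ContDiffAt ℝ 2 (δ n) v :=
        (contDiffOn_infty.1 (h.smooth n) 2).contDiffAt (isOpen_ball.mem_nhds hv)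
      exact (h2.fderiv_right (m := 1) (by norm_num)).differentiableAt (by norm_num)
    have h3 : ‖fderiv ℝ (δ n) u - fderiv ℝ (δ n) 0‖ ≤ B * ‖u - 0‖ := by
      refine (convex_ball (0 : E) R).norm_image_sub_le_of_norm_fderiv_le hfd (fun v hv => ?_)
        (mem_ball_self hR) hu
      rw [← norm_iteratedFDeriv_one, norm_iteratedFDeriv_fderiv]
      exact hB v hv
    rw [sub_zero] at h3
    have h4 : ‖u‖ ≤ R := (mem_ball_zero_iff.1 hu).le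
    have h5 : ‖fderiv ℝ (δ n) u‖ ≤ ‖fderiv ℝ (δ n) 0‖ + ‖fderiv ℝ (δ n) u - fderiv ℝ (δ n) 0‖ := by
      have := norm_add_le (fderiv ℝ (δ n) 0) (fderiv ℝ (δ n) u - fderiv ℝ (δ n) 0)
      rwa [add_sub_cancel] at this
    have h6 : B * ‖u‖ ≤ R * B := by rw [mul_comm R]; gcongr
    exact h5.trans (add_le_add le_rfl (h3.trans h6))
  have harn : ∀ n, σ n ≤ H * t n := by
    intro n
    induction n using Nat.strong_induction_on with
    | _ n ih =>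
      have hQ : 0 ≤ s₀ ^ (κ - 1) * H * C₁ * t n := by
        have := (htp n).le
        positivity
      have h2 : Sr (lam ^ 2) (fun j => σ j ^ κ) n ≤
          (s₀ ^ (κ - 1) * H * C₁ * t n) * mu / (1 - lam ^ 2 * mu) := by
        refine Sr_le hq0 hmu0.le hlm1 n hQ fun i hi => ?_
        have h3 : σ i ^ κ = σ i ^ (κ - 1) * σ i := by
          rw [Real.rpow_sub_one (hσp i).ne', div_mul_cancel₀ _ (hσp i).ne']
        have h4 : σ i ^ (κ - 1) ≤ s₀ ^ (κ - 1) := Real.rpow_le_rpow (hσp i).le (hσs i) hκ0.le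
        change σ i ^ κ ≤ _
        rw [h3]
        calc σ i ^ (κ - 1) * σ i ≤ s₀ ^ (κ - 1) * (H * t i) :=
              mul_le_mul h4 (ih i hi) (hσp i).le (by positivity)
          _ ≤ s₀ ^ (κ - 1) * (H * (C₁ * mu ^ (n - i) * t n)) := by
              have := hrate i n hi.le
              gcongr
          _ = s₀ ^ (κ - 1) * H * C₁ * t n * mu ^ (n - i) := by ring
      have h3 := hfin n _ (hhigh 2 le_rfl n)
      refine h3.trans ?_
      have h4 : (lam ^ 2) ^ n * |M 2| ≤ C₁ * t n / c₁ * |M 2| := by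
        refine mul_le_mul_of_nonneg_right ?_ (abs_nonneg _)
        rw [le_div_iff₀ hc₁]
        exact hgeo n
      have hK2 : 0 ≤ K 2 * 2 ^ κ := mul_nonneg (hK0 2 (by norm_num)) (by positivity)
      have h5 : K 2 * 2 ^ κ * Sr (lam ^ 2) (fun j => σ j ^ κ) n ≤
          K 2 * 2 ^ κ * ((s₀ ^ (κ - 1) * H * C₁ * t n) * mu / (1 - lam ^ 2 * mu)) :=
        mul_le_mul_of_nonneg_left h2 hK2
      have h6 : R * ((lam ^ 2) ^ n * |M 2| + K 2 * 2 ^ κ * Sr (lam ^ 2) (fun j => σ j ^ κ) n) ≤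
          R * (C₁ * t n / c₁ * |M 2| +
            K 2 * 2 ^ κ * ((s₀ ^ (κ - 1) * H * C₁ * t n) * mu / (1 - lam ^ 2 * mu))) :=
        mul_le_mul_of_nonneg_left (add_le_add h4 h5) hR.le
      have h7 : R * (C₁ * t n / c₁ * |M 2| +
            K 2 * 2 ^ κ * ((s₀ ^ (κ - 1) * H * C₁ * t n) * mu / (1 - lam ^ 2 * mu))) =
          R * |M 2| * C₁ / c₁ * t n +
          (R * (K 2 * 2 ^ κ) * (C₁ * mu / (1 - lam ^ 2 * mu)) * s₀ ^ (κ - 1)) * (H * t n) := by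
        ring
      have h8 : (R * (K 2 * 2 ^ κ) * (C₁ * mu / (1 - lam ^ 2 * mu)) * s₀ ^ (κ - 1)) * (H * t n) ≤
          1 / 2 * (H * t n) := mul_le_mul_of_nonneg_right hsB.le (mul_nonneg hH0.le (htp n).le)
      have h9 : H * t n = 2 * (t n + R * |M 2| * C₁ / c₁ * t n) := by rw [hH]; ring
      linarith
  -- the conclusion
  intro n u hu
  refine ⟨(hσb n u hu).trans (harn n), (hhigh k hk n u hu).trans ?_⟩
  have hmk0 : 0 < mu ^ κ := Real.rpow_pos_of_pos hmu0 κ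
  have hκp : 0 ≤ κ := by linarith
  have h2 : Sr (lam ^ 2) (fun j => σ j ^ κ) n ≤
      (H ^ κ * C₁ ^ κ * t n ^ κ) * mu ^ κ / (1 - lam ^ 2 * mu ^ κ) := by
    refine Sr_le hq0 hmk0.le hlm n (by have := (htp n).le; positivity) fun i hi => ?_
    have h3 : σ i ≤ H * (C₁ * mu ^ (n - i) * t n) :=
      (harn i).trans (mul_le_mul_of_nonneg_left (hrate i n hi.le) hH0.le)
    have h4 : σ i ^ κ ≤ (H * (C₁ * mu ^ (n - i) * t n)) ^ κ :=
      Real.rpow_le_rpow (hσp i).le h3 hκp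
    refine h4.trans (le_of_eq ?_)
    have hpn : (0 : ℝ) ≤ mu ^ (n - i) := by positivity
    rw [Real.mul_rpow hH0.le (by have := (htp n).le; positivity),
      Real.mul_rpow (by positivity) (htp n).le, Real.mul_rpow (by linarith) hpn,
      ← Real.rpow_natCast mu (n - i), ← Real.rpow_mul hmu0.le, mul_comm ((n - i : ℕ) : ℝ) κ,
      Real.rpow_mul hmu0.le, Real.rpow_natCast]
    ring
  have h3 : (lam ^ 2) ^ n ≤ (C₁ / c₁) ^ κ * t n ^ κ := by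
    have h4 := hrate 0 n (Nat.zero_le n)
    rw [Nat.sub_zero] at h4
    have h5 : c₁ ≤ C₁ * mu ^ n * t n := h.start.trans h4
    have h6 : c₁ ^ κ ≤ (C₁ * mu ^ n * t n) ^ κ := Real.rpow_le_rpow hc₁.le h5 hκp
    have hpn : (0 : ℝ) ≤ mu ^ n := by positivity
    rw [Real.mul_rpow (by positivity) (htp n).le, Real.mul_rpow (by linarith) hpn,
      ← Real.rpow_natCast mu n, ← Real.rpow_mul hmu0.le, mul_comm (n : ℝ) κ,
      Real.rpow_mul hmu0.le, Real.rpow_natCast] at h6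
    have h7 : (lam ^ 2 * mu ^ κ) ^ n ≤ 1 := pow_le_one₀ (by positivity) hlm.le
    have hcp : 0 < c₁ ^ κ := Real.rpow_pos_of_pos hc₁ κ
    have htn := (htp n).le
    rw [Real.div_rpow (by linarith) hc₁.le, div_mul_eq_mul_div, le_div_iff₀ hcp]
    calc (lam ^ 2) ^ n * c₁ ^ κ ≤ (lam ^ 2) ^ n * (C₁ ^ κ * (mu ^ κ) ^ n * t n ^ κ) := by gcongr
      _ = (lam ^ 2 * mu ^ κ) ^ n * (C₁ ^ κ * t n ^ κ) := by rw [mul_pow]; ring
      _ ≤ 1 * (C₁ ^ κ * t n ^ κ) := mul_le_mul_of_nonneg_right h7 (by positivity)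
      _ = C₁ ^ κ * t n ^ κ := one_mul _
  have hKk : 0 ≤ K k * 2 ^ κ := mul_nonneg (hK0 k (by omega)) (by positivity)
  have h4 := mul_le_mul_of_nonneg_right h3 (abs_nonneg (M k))
  have h5 := mul_le_mul_of_nonneg_left h2 hKk
  have h6 : K k * 2 ^ κ * ((H ^ κ * C₁ ^ κ * t n ^ κ) * mu ^ κ / (1 - lam ^ 2 * mu ^ κ)) =
      K k * 2 ^ κ * (H ^ κ * C₁ ^ κ * mu ^ κ / (1 - lam ^ 2 * mu ^ κ)) * t n ^ κ := by ring
  rw [h6] at h5
  change _ ≤ (|M k| * (C₁ / c₁) ^ κ +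
    K k * 2 ^ κ * (H ^ κ * C₁ ^ κ * mu ^ κ / (1 - lam ^ 2 * mu ^ κ))) * t n ^ κ
  linarith

end Vale.Agent.P207.H469.T2

end
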